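import Mathlib

/-! A checker for the nonvanishing of all minors of a matrix modulo a prime. -/

namespace Vale.Agent.P372

noncomputable def red (h g : ℕ) (t : List ℕ) : List ℕ → List ℕ :=
  List.rec (fun _ => []) (fun x _ ih y => List.rec []
    (fun z s _ => Nat.mod (Nat.add (Nat.mul h z) (Nat.mul g x)) 1000423 :: ih s) y) t

noncomputable def schur (h : ℕ) (t : List ℕ) (A : List (List ℕ)) : List (List ℕ) :=
  List.rec [] (fun row _ ih => List.rec []
    (fun g y _ => red h (Nat.mod (Nat.mul 1000422 g) 1000423) t y) row :: ih) A

noncomputable def tails (A : List (List ℕ)) : List (List ℕ) :=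
  List.rec [] (fun row _ ih => List.rec [] (fun _ y _ => y) row :: ih) A

noncomputable def chkCols (f : List (List ℕ) → Bool) (r : List ℕ) : List (List ℕ) → Bool :=
  List.rec (fun _ => true) (fun h t ih A =>
    Bool.rec false (List.rec true (fun _ _ _ => Bool.rec false (ih (tails A)) (f (schur h t A))) t)
      (Nat.ble 1 (Nat.mod h 1000423))) r

noncomputable def chk (n : ℕ) : List (List ℕ) → Bool :=
  Nat.rec (fun A => List.rec true (fun _ _ _ => false) A)
    (fun _ ih A => List.rec true (fun r B _ => Bool.rec false (chkCols ih r B) (ih B)) A) n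

lemma red_cons (h g x z : ℕ) (t s : List ℕ) :
    red h g (x :: t) (z :: s) = (h * z + g * x) % 1000423 :: red h g t s := rfl

lemma schur_cons (h g : ℕ) (t y : List ℕ) (A : List (List ℕ)) :
    schur h t ((g :: y) :: A) = red h (1000422 * g % 1000423) t y :: schur h t A := rfl

lemma tails_cons (g : ℕ) (y : List ℕ) (A : List (List ℕ)) :
    tails ((g :: y) :: A) = y :: tails A := rfl

lemma chkCols_cons {f : List (List ℕ) → Bool} {h : ℕ} {t : List ℕ} {A : List (List ℕ)}
    (H : chkCols f (h :: t) A = true) :
    1 ≤ h % 1000423 ∧ (t = [] ∨ (f (schur h t A) = true ∧ chkCols f t (tails A) = true)) := by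
  have H' : (Bool.rec false (List.rec true (fun _ _ _ => Bool.rec false (chkCols f t (tails A))
      (f (schur h t A))) t) (Nat.ble 1 (h % 1000423)) : Bool) = true := H
  cases h1 : Nat.ble 1 (h % 1000423)
  · rw [h1] at H'; exact absurd H' (by simp)
  · rw [h1] at H'
    refine ⟨Nat.le_of_ble_eq_true h1, ?_⟩
    cases t with
    | nil => exact Or.inl rfl
    | cons x s =>
      right
      have H2 : (Bool.rec false (chkCols f (x :: s) (tails A))
        (f (schur h (x :: s) A)) : Bool) = true := H'
      cases h2 : f (schur h (x :: s) A)
      · rw [h2] at H2; exact absurd H2 (by simp)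
      · rw [h2] at H2; exact ⟨rfl, H2⟩

lemma chk_succ {n : ℕ} {r : List ℕ} {B : List (List ℕ)} (H : chk (n + 1) (r :: B) = true) :
    chk n B = true ∧ chkCols (chk n) r B = true := by
  have H' : (Bool.rec false (chkCols (chk n) r B) (chk n B) : Bool) = true := H
  cases h1 : chk n B
  · rw [h1] at H'; exact absurd H' (by simp)
  · rw [h1] at H'; exact ⟨rfl, H'⟩

lemma red_length (h g : ℕ) : ∀ (t y : List ℕ), y.length = t.length →
    (red h g t y).length = t.length
  | [], _, _ => rfl
  | _ :: _, [], H => by simp at H
  | x :: t, z :: s, H => by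
    rw [red_cons, List.length_cons, List.length_cons, red_length h g t s (by simpa using H)]

lemma schur_spec (h : ℕ) (t : List ℕ) : ∀ A : List (List ℕ),
    (∀ r ∈ A, r.length = t.length + 1) →
      (schur h t A).length = A.length ∧ ∀ r ∈ schur h t A, r.length = t.length
  | [], _ => ⟨rfl, fun r hr => by cases hr⟩
  | [] :: A, H => by simpa using H [] (by simp)
  | (g :: y) :: A, H => by
    have ih := schur_spec h t A fun r hr => H r (List.mem_cons_of_mem _ hr)
    rw [schur_cons]
    refine ⟨by simp [ih.1], fun r hr => ?_⟩
    rcases List.mem_cons.mp hr with rfl | hr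
    · exact red_length _ _ _ _ (by simpa using H (g :: y) (by simp))
    · exact ih.2 r hr

lemma tails_spec (n : ℕ) : ∀ A : List (List ℕ),
    (∀ r ∈ A, r.length = n + 1) →
      (tails A).length = A.length ∧ ∀ r ∈ tails A, r.length = n
  | [], _ => ⟨rfl, fun r hr => by cases hr⟩
  | [] :: A, H => by simpa using H [] (by simp)
  | (g :: y) :: A, H => by
    have ih := tails_spec n A fun r hr => H r (List.mem_cons_of_mem _ hr)
    rw [tails_cons]
    refine ⟨by simp [ih.1], fun r hr => ?_⟩
    rcases List.mem_cons.mp hr with rfl | hr
    · simpa using H (g :: r) (by simp)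
    · exact ih.2 r hr

variable {K : Type} [Field K]

/-- the `j`-th entry of the row vector `q A` -/
def val : List (List ℕ) → (ℕ → K) → ℕ → K
  | [], _, _ => 0
  | r :: A, q, j => q 0 * (r.getD j 0 : ℕ) + val A (fun i => q (i + 1)) j

lemma val_zero (j : ℕ) : ∀ (A : List (List ℕ)) (q : ℕ → K), (∀ i < A.length, q i = 0) →
    val A q j = 0
  | [], _, _ => rfl
  | r :: A, q, H => by
    rw [val, H 0 (by simp), val_zero j A _ fun i hi => H (i + 1) (by simpa using hi)]
    simp

lemma val_tails (n j : ℕ) : ∀ (A : List (List ℕ)) (q : ℕ → K), (∀ r ∈ A, r.length = n + 1) →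
    val (tails A) q j = val A q (j + 1)
  | [], _, _ => rfl
  | [] :: A, _, H => by simpa using H [] (by simp)
  | (g :: y) :: A, q, H => by
    rw [tails_cons, val, val, val_tails n j A _ fun r hr => H r (List.mem_cons_of_mem _ hr)]
    rfl

variable [CharP K 1000423]

lemma cast_mod (a : ℕ) : ((a % 1000423 : ℕ) : K) = a := (CharP.cast_eq_mod K 1000423 a).symm

lemma red_getD (h g : ℕ) : ∀ (t y : List ℕ) (j : ℕ), y.length = t.length →
    (((red h g t y).getD j 0 : ℕ) : K) = h * (y.getD j 0 : ℕ) + g * (t.getD j 0 : ℕ)
  | [], [], j, _ => by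
    have : red h g [] [] = [] := rfl
    simp [this]
  | [], _ :: _, _, H => by simp at H
  | _ :: _, [], _, H => by simp at H
  | x :: t, z :: s, 0, _ => by
    rw [red_cons, List.getD_cons_zero, List.getD_cons_zero, List.getD_cons_zero, cast_mod]
    push_cast; rfl
  | x :: t, z :: s, j + 1, H => by
    rw [red_cons, List.getD_cons_succ, List.getD_cons_succ, List.getD_cons_succ]
    exact red_getD h g t s j (by simpa using H)

lemma val_schur (h : ℕ) (t : List ℕ) (j : ℕ) : ∀ (A : List (List ℕ)) (q : ℕ → K),
    (∀ r ∈ A, r.length = t.length + 1) →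
    val (schur h t A) q j = h * val A q (j + 1) - (t.getD j 0 : ℕ) * val A q 0
  | [], _, _ => by
    have : schur h t [] = [] := rfl
    simp [this, val]
  | [] :: A, _, H => by simpa using H [] (by simp)
  | (g :: y) :: A, q, H => by
    rw [schur_cons, val, val, val, val_schur h t j A _ fun r hr => H r (List.mem_cons_of_mem _ hr),
      red_getD _ _ _ _ _ (by simpa using H (g :: y) (by simp)), cast_mod, List.getD_cons_succ,
      List.getD_cons_zero]
    have hp : ((1000423 : ℕ) : K) = 0 := CharP.cast_eq_zero K 1000423
    have hp' : (1000422 : K) + 1 = 0 := by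
      rw [← hp]; norm_num
    push_cast
    linear_combination (q 0 * g * ((t.getD j 0 : ℕ) : K)) * hp'

open Classical in
/-- every nonzero vector `(q, q A)` has fewer zero entries than `A` has rows -/
def Good (K : Type) [Field K] (A : List (List ℕ)) (n : ℕ) : Prop :=
  ∀ q : ℕ → K, A.length ≤ Nat.count (fun i => q i = 0) A.length +
    Nat.count (fun j => val A q j = 0) n → ∀ i < A.length, q i = 0

omit [CharP K 1000423] in
lemma good_zero (A : List (List ℕ)) : Good K A 0 := by
  classical
  intro q H
  rw [Nat.count_zero, add_zero] at H
  exact Nat.count_iff_forall.mp (le_antisymm (Nat.count_le _) H)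

lemma count_congr {p q : ℕ → Prop} [DecidablePred p] [DecidablePred q] (h : ∀ i, p i ↔ q i)
    (n : ℕ) : Nat.count p n = Nat.count q n := by
  induction n with
  | zero => rfl
  | succ n ih => rw [Nat.count_succ, Nat.count_succ, ih]; simp only [h]

open Classical in
lemma chkCols_sound {f : List (List ℕ) → Bool}
    (hf : ∀ A n, (∀ r ∈ A, r.length = n) → f A = true → Good K A n) {x : K} (hx : x ≠ 0)
    (q : ℕ → K) : ∀ (r : List ℕ) (A : List (List ℕ)), (∀ s ∈ A, s.length = r.length) →
      chkCols f r A = true →
      Nat.count (fun i => q i = 0) A.length +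
        Nat.count (fun j => x * (r.getD j 0 : ℕ) + val A q j = 0) r.length ≤ A.length
  | [], A, _, _ => by
    rw [List.length_nil, Nat.count_zero, add_zero]; exact Nat.count_le _
  | h :: t, A, HA, H => by
    obtain ⟨h1, h2⟩ := chkCols_cons H
    have hh : (h : K) ≠ 0 := by
      rw [Ne, CharP.cast_eq_zero_iff K 1000423]
      omega
    rw [List.length_cons] at HA
    rw [List.length_cons, Nat.count_succ']
    split_ifs with h0
    · by_contra hc
      rw [List.getD_cons_zero] at h0
      have hg : Good K (schur h t A) t.length := by
        rcases h2 with rfl | h2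
        · exact good_zero _
        · exact hf _ _ (schur_spec h t A HA).2 h2.1
      have := hg q (by
        rw [(schur_spec h t A HA).1]
        have e : Nat.count (fun j => val (schur h t A) q j = 0) t.length =
            Nat.count (fun k => x * ((h :: t).getD (k + 1) 0 : ℕ) + val A q (k + 1) = 0)
              t.length := by
          apply count_congr
          intro j
          rw [val_schur h t j A q HA, List.getD_cons_succ]
          constructor
          · intro e
            apply mul_left_cancel₀ hh
            linear_combination e + ((t.getD j 0 : ℕ) : K) * h0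
          · intro e
            linear_combination (h : K) * e - ((t.getD j 0 : ℕ) : K) * h0
        rw [e]
        omega)
      rw [(schur_spec h t A HA).1] at this
      rw [val_zero 0 A q this, add_zero] at h0
      exact mul_ne_zero hx hh h0
    · rw [add_zero]
      rcases h2 with rfl | h2
      · rw [List.length_nil, Nat.count_zero, add_zero]; exact Nat.count_le _
      · have ih := chkCols_sound hf hx q t (tails A) (tails_spec _ A HA).2 h2.2
        rw [(tails_spec _ A HA).1] at ih
        refine le_of_eq_of_le ?_ ih
        congr 1
        apply count_congr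
        intro j
        rw [val_tails _ j A q HA, List.getD_cons_succ]

lemma chk_sound : ∀ (m : ℕ) (A : List (List ℕ)) (n : ℕ), (∀ r ∈ A, r.length = n) →
    chk m A = true → Good K A n
  | _, [], _, _, _ => fun _ _ i hi => by simp at hi
  | 0, _ :: _, _, _, H => absurd H (by
      have : ∀ r B, chk 0 (r :: B) = false := fun _ _ => rfl
      simp [this])
  | m + 1, r :: B, n, HA, H => by
    classical
    obtain ⟨h1, h2⟩ := chk_succ H
    have hr : r.length = n := HA r (by simp)
    have HB : ∀ s ∈ B, s.length = n := fun s hs => HA s (List.mem_cons_of_mem _ hs)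
    intro q hq
    rw [List.length_cons, Nat.count_succ'] at hq
    by_cases h0 : q 0 = 0
    · have hg := chk_sound m B n HB h1 (fun i => q (i + 1)) (by
        have e : Nat.count (fun j => val (r :: B) q j = 0) n =
            Nat.count (fun j => val B (fun i => q (i + 1)) j = 0) n := by
          apply count_congr
          intro j
          rw [val, h0, zero_mul, zero_add]
        rw [if_pos h0, e] at hq
        omega)
      intro i hi
      cases i with
      | zero => exact h0
      | succ i => exact hg i (by simpa using hi)
    · exfalso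
      have := chkCols_sound (chk_sound m) h0 (fun i => q (i + 1)) r B
        (fun s hs => (HB s hs).trans hr.symm) h2
      rw [if_neg h0, add_zero] at hq
      rw [hr] at this
      have e : Nat.count (fun j => val (r :: B) q j = 0) n =
          Nat.count (fun j => q 0 * (r.getD j 0 : ℕ) + val B (fun i => q (i + 1)) j = 0) n := rfl
      omega

end Vale.Agent.P372
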