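import Vale.Agent.P372.Data

/-! Nineteen product vectors in the kernel, in general position with respect to quadrics. -/

namespace Vale.Agent.P372

open Matrix

lemma ev_lsum4 {R : Type} [CommRing R] (t : R) (f : Fin 4 → List ℤ) :
    ev t (lsum4 f) = ∑ a, ev t (f a) := by
  simp only [lsum4, ev_ladd, Fin.sum_univ_four]; ring

lemma ker_eq {R : Type} [CommRing R] {t : R} (ht : ev t (FL ++ [1]) = 0) {s : ℕ} (hs : s < 19)
    (i : Fin 6) : ∑ a, ∑ c, (nv i a c : R) * (ev t (PU s a) * ev t (PX s c)) = 0 := by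
  have := ev_lzero t _ (check1 s hs i)
  rw [ev_ladd, ev_lsmul, ev_lmul, ht, mul_zero, mul_zero, add_zero] at this
  simpa only [quad, ev_lsum4, ev_lsmul, ev_lmul] using this

lemma val_eq {K : Type} [Field K] (j : ℕ) : ∀ (A : List (List ℕ)) (q : ℕ → K),
    val A q j = ∑ i ∈ Finset.range A.length, q i * ((A.getD i []).getD j 0 : ℕ)
  | [], _ => by simp [val]
  | r :: A, q => by
    rw [val, val_eq j A, List.length_cons, Finset.sum_range_succ', add_comm]
    rfl

lemma count_congr' {p q : ℕ → Prop} [DecidablePred p] [DecidablePred q] (n : ℕ)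
    (h : ∀ i < n, p i ↔ q i) : Nat.count p n = Nat.count q n := by
  induction n with
  | zero => rfl
  | succ n ih =>
    rw [Nat.count_succ, Nat.count_succ, ih fun i hi => h i (by omega)]
    simp only [h n (by omega)]

lemma cast_zero_of_mod {K : Type} [Field K] [CharP K 1000423] {a : ℤ} (h : a % 1000423 = 0) :
    (a : K) = 0 :=
  (CharP.intCast_eq_zero_iff K 1000423 a).mpr (Int.dvd_of_emod_eq_zero h)

open Classical in
lemma gp_K {K : Type} [Field K] [CharP K 1000423] (q : Fin 10 → K)
    (h : 10 ≤ Nat.count (fun s => ∑ m, (VV s m : K) * q m = 0) 19) : q = 0 := by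
  have hg : Good K AA 9 := chk_sound 10 AA 9 check9 check10
  have hl : AA.length = 10 := rfl
  have hz := hg (fun s => ∑ m, (VV s m : K) * q m) (by
    rw [hl]
    rw [show 19 = 10 + 9 from rfl, Nat.count_add] at h
    refine h.trans (le_of_eq ?_)
    congr 1
    refine count_congr' 9 fun j hj => ?_
    rw [val_eq, hl]
    have : ∑ i ∈ Finset.range 10, (∑ m, (VV i m : K) * q m) * ((AA.getD i []).getD j 0 : ℕ) =
        ∑ m, (VV (10 + j) m : K) * q m := by
      simp only [Finset.sum_mul]
      rw [Finset.sum_comm]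
      refine Finset.sum_congr rfl fun m _ => ?_
      have e := cast_zero_of_mod (K := K) (check5 j hj m)
      rw [Int.cast_sub, sub_eq_zero, Int.cast_sum] at e
      rw [← e, Finset.sum_mul]
      refine Finset.sum_congr rfl fun i _ => ?_
      push_cast; ring
    rw [this])
  rw [hl] at hz
  funext m'
  have e1 : ∑ i ∈ Finset.range 10, (NN m' i : K) * ∑ m, (VV i m : K) * q m = 0 :=
    Finset.sum_eq_zero fun i hi => by rw [hz i (Finset.mem_range.mp hi), mul_zero]
  have e2 : ∑ i ∈ Finset.range 10, (NN m' i : K) * ∑ m, (VV i m : K) * q m =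
      ∑ m, (if m' = m then 1 else 0) * q m := by
    simp only [Finset.mul_sum]
    rw [Finset.sum_comm]
    refine Finset.sum_congr rfl fun m _ => ?_
    have e := cast_zero_of_mod (K := K) (check6 m' m)
    rw [Int.cast_sub, sub_eq_zero, Int.cast_sum] at e
    have e' : (((if m' = m then 1 else 0 : ℤ)) : K) = if m' = m then 1 else 0 := by
      split_ifs <;> simp
    rw [← e', ← e, Finset.sum_mul]
    refine Finset.sum_congr rfl fun i _ => ?_
    push_cast; ring
  rw [e1] at e2
  simpa using e2.symm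

open Classical in
theorem exists_points : ∃ u ξ : ℕ → Fin 4 → ℂ, (∀ s < 19, ξ s ≠ 0) ∧
    (∀ s < 19, ∀ i : Fin 6, ∑ a, ∑ c, (nv i a c : ℂ) * (u s a * ξ s c) = 0) ∧
    ∀ q : Fin 4 → Fin 4 → ℂ,
      10 ≤ Nat.count (fun s => ∑ a, ∑ b, q a b * (u s a * u s b) = 0) 19 →
      ∀ w : Fin 4 → ℂ, ∑ a, ∑ b, q a b * (w a * w b) = 0 := by
  obtain ⟨K, _, _, φ, hφ⟩ := exists_res
  have h1 : ∀ s : ℕ, ∃ θ : OO, s < 19 → ev θ (FL ++ [1]) = 0 ∧ φ θ = PA s := by
    intro s
    by_cases hs : s < 19
    · obtain ⟨θ, h⟩ := hφ FL (PA s) (Int.dvd_of_emod_eq_zero (check2 s hs))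
      exact ⟨θ, fun _ => h⟩
    · exact ⟨0, fun h => absurd h hs⟩
  choose θ hθ using h1
  have hφe : ∀ s < 19, ∀ l : List ℤ, φ (ev (θ s) l) = ((ev (PA s) l : ℤ) : K) := by
    intro s hs l
    rw [ev_map, (hθ s hs).2]
    have := ev_map (Int.castRingHom K) (PA s) l
    rw [eq_intCast, eq_intCast] at this
    exact this.symm
  have hW : ∀ s < 19, ∀ a, φ (ev (θ s) (PU s a)) = WW s a := by
    intro s hs a
    have e := cast_zero_of_mod (K := K) (check3 s hs a)
    rw [Int.cast_sub, sub_eq_zero] at e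
    rw [hφe s hs, e]
  refine ⟨fun s a => algebraMap OO ℂ (ev (θ s) (PU s a)),
    fun s a => algebraMap OO ℂ (ev (θ s) (PX s a)), ?_, ?_, ?_⟩
  · intro s hs h0
    obtain ⟨c, hc⟩ := check4 s hs
    have e : algebraMap OO ℂ (ev (θ s) (PX s c)) = 0 := congrFun h0 c
    have e2 : ev (θ s) (PX s c) = 0 := Subtype.val_injective e
    have e3 := hφe s hs (PX s c)
    rw [e2, map_zero, eq_comm, CharP.intCast_eq_zero_iff K 1000423] at e3
    exact hc (Int.emod_eq_zero_of_dvd e3)
  · intro s hs i
    have := congrArg (algebraMap OO ℂ) (ker_eq (hθ s hs).1 hs i)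
    simpa only [map_sum, map_mul, map_intCast, map_zero] using this
  · intro q hq w
    let q' : Fin 10 → ℂ := fun m =>
      if ia m = ib m then q (ia m) (ia m) else q (ia m) (ib m) + q (ib m) (ia m)
    have hq' : ∀ v : Fin 4 → ℂ, ∑ a, ∑ b, q a b * (v a * v b) =
        ∑ m, v (ia m) * v (ib m) * q' m := by
      intro v
      simp [q', ia, ib, Fin.sum_univ_succ]
      ring
    rw [Nat.count_eq_card_filter_range] at hq
    let f := Finset.orderEmbOfCardLe _ hq
    have hf : ∀ k, f k < 19 ∧ ∑ a, ∑ b, q a b * (algebraMap OO ℂ (ev (θ (f k)) (PU (f k) a)) *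
        algebraMap OO ℂ (ev (θ (f k)) (PU (f k) b))) = 0 := by
      intro k
      have := Finset.orderEmbOfCardLe_mem _ hq k
      rw [Finset.mem_filter, Finset.mem_range] at this
      exact this
    let M : Matrix (Fin 10) (Fin 10) OO :=
      Matrix.of fun k m => ev (θ (f k)) (PU (f k) (ia m)) * ev (θ (f k)) (PU (f k) (ib m))
    have d1 : (φ.mapMatrix M).det ≠ 0 := by
      rw [Ne, ← Matrix.exists_mulVec_eq_zero_iff]
      rintro ⟨v, hv, hv2⟩
      refine hv (gp_K v ?_)
      rw [Nat.count_eq_card_filter_range]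
      have := Finset.card_le_card_of_injOn (s := (Finset.univ : Finset (Fin 10)))
        (t := (Finset.range 19).filter fun s => ∑ m, (VV s m : K) * v m = 0) f ?_
        f.injective.injOn
      · simpa using this
      · intro k _
        rw [Finset.coe_filter]
        refine ⟨Finset.mem_range.mpr (hf k).1, ?_⟩
        have e := congrFun hv2 k
        rw [Pi.zero_apply] at e
        simpa only [mulVec, dotProduct, M, VV, RingHom.mapMatrix_apply, map_apply, of_apply,
          map_mul, hW _ (hf k).1, Int.cast_mul] using e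
    have d2 : M.det ≠ 0 := by
      intro h0
      rw [← RingHom.map_det, h0, map_zero] at d1
      exact d1 rfl
    have d3 : ((algebraMap OO ℂ).mapMatrix M).det ≠ 0 := by
      rw [← RingHom.map_det]
      intro h0
      exact d2 (Subtype.val_injective h0)
    have hq0 : q' = 0 := by
      by_contra h0
      refine d3 (Matrix.exists_mulVec_eq_zero_iff.mp ⟨q', h0, ?_⟩)
      funext k
      have e := (hf k).2
      rw [hq' (fun a => algebraMap OO ℂ (ev (θ (f k)) (PU (f k) a)))] at e
      rw [Pi.zero_apply, ← e]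
      simp only [mulVec, dotProduct, M, RingHom.mapMatrix_apply, map_apply, of_apply, map_mul]
    rw [hq', hq0]
    simp

end Vale.Agent.P372
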