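import Vale.Agent.P372.Tensor
import Vale.Agent.P372.Points

/-! The example: an entangled state obtained by joining two PPT states. -/

namespace Vale.Agent.P372

open Matrix
open scoped Kronecker ComplexOrder MatrixOrder

def rho : Matrix (Fin 4 × Fin 4) (Fin 4 × Fin 4) ℂ :=
  Matrix.of fun p q => (rhoZ p.1 p.2 q.1 q.2 : ℂ)

lemma rho_psd : rho.PosSemidef := by
  have : rho = (Matrix.of fun (i : Fin 6) (p : Fin 4 × Fin 4) => (nv i p.1 p.2 : ℂ))ᴴ *
      Matrix.diagonal (fun i => ((dv i : ℕ) : ℂ)) *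
      (Matrix.of fun (i : Fin 6) (p : Fin 4 × Fin 4) => (nv i p.1 p.2 : ℂ)) := by
    ext p q
    rw [Matrix.mul_apply]
    simp only [rho, rhoZ, of_apply, mul_diagonal, conjTranspose_apply, star_intCast]
    push_cast
    rfl
  rw [this]
  exact (PosSemidef.diagonal fun i => Nat.cast_nonneg _).conjTranspose_mul_mul_same _

lemma rho_ppt : PPT rho := by
  refine ⟨rho_psd, ?_⟩
  have : ptr rho = rho := by
    ext p q
    simp only [ptr, rho, of_apply, check7]
  rw [this]; exact rho_psd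

lemma join_ppt {A B C D : Type} [Fintype A] [Fintype B] [Fintype C] [Fintype D]
    {α : Matrix (A × C) (A × C) ℂ} {β : Matrix (B × D) (B × D) ℂ}
    (hα : PPT α) (hβ : PPT β) : PPT (join α β) :=
  ⟨join_psd hα.1 hβ.1, join_psd hα.2 hβ.2⟩

/-- the totally antisymmetric tensor -/
def Om (c : (Fin 4 × Fin 4) × (Fin 4 × Fin 4)) : ℂ :=
  ∑ π : Equiv.Perm (Fin 4), if c = ((π 0, π 1), (π 2, π 3)) then ((Equiv.Perm.sign π : ℤ) : ℂ) else 0

lemma sum_Om (g : (Fin 4 × Fin 4) × (Fin 4 × Fin 4) → ℂ) :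
    ∑ c, g c * Om c =
      ∑ π : Equiv.Perm (Fin 4), ((Equiv.Perm.sign π : ℤ) : ℂ) * g ((π 0, π 1), (π 2, π 3)) := by
  simp only [Om, Finset.mul_sum]
  rw [Finset.sum_comm]
  refine Finset.sum_congr rfl fun π _ => ?_
  simp only [mul_ite, mul_zero, Finset.sum_ite_eq', Finset.mem_univ, if_true]
  ring

lemma star_Om : star Om = Om := by
  funext c
  simp only [Om, Pi.star_apply, star_sum]
  refine Finset.sum_congr rfl fun π _ => ?_
  split_ifs
  · exact star_intCast _
  · exact star_zero _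

lemma quad_Om (s : Matrix (Fin 4) (Fin 4) ℂ) :
    star Om ⬝ᵥ (((s ⊗ₖ s) ⊗ₖ (s ⊗ₖ s)) *ᵥ Om) = 24 * s.det := by
  rw [star_Om, dotProduct_comm]
  simp only [dotProduct, mulVec]
  rw [sum_Om]
  have : ∀ π : Equiv.Perm (Fin 4), ∑ d, ((s ⊗ₖ s) ⊗ₖ (s ⊗ₖ s)) ((π 0, π 1), (π 2, π 3)) d * Om d =
      ((Equiv.Perm.sign π : ℤ) : ℂ) * s.det := by
    intro π
    rw [sum_Om, ← det_permute, ← det_transpose, det_apply']
    refine Finset.sum_congr rfl fun π' _ => ?_
    simp only [kroneckerMap_apply, Fin.prod_univ_four, transpose_apply, submatrix_apply, id]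
    ring
  simp only [this]
  have h2 : ∀ π : Equiv.Perm (Fin 4), ((Equiv.Perm.sign π : ℤ) : ℂ) *
      (((Equiv.Perm.sign π : ℤ) : ℂ) * s.det) = s.det := by
    intro π
    rcases Int.units_eq_one_or (Equiv.Perm.sign π) with h | h <;> simp [h]
  simp only [h2, Finset.sum_const, Finset.card_univ, Fintype.card_perm, Fintype.card_fin,
    nsmul_eq_mul]
  norm_num [Nat.factorial]

/-- the unnormalised example -/
noncomputable def tau :
    Matrix ((Fin 4 × Fin 4) × (Fin 4 × Fin 4)) ((Fin 4 × Fin 4) × (Fin 4 × Fin 4)) ℂ :=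
  comp (join (join rho rho) (join rho rho)) Om Om

lemma tau_psd : tau.PosSemidef :=
  comp_psd (join_psd (join_psd rho_psd rho_psd) (join_psd rho_psd rho_psd)) Om

lemma tau_quad (u : Fin 4 → ℂ) :
    (tau * ((proj u ⊗ₖ proj u) ⊗ₖ (proj u ⊗ₖ proj u))).trace = 24 * (phi rho (proj u)).det := by
  rw [tau, trace_comp_mul, phi_join, phi_join, quad_Om]

lemma det_ker {u ξ : Fin 4 → ℂ} (hξ : ξ ≠ 0)
    (h : ∀ i : Fin 6, ∑ a, ∑ c, (nv i a c : ℂ) * (u a * ξ c) = 0) : (phi rho (proj u)).det = 0 := by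
  refine Matrix.exists_mulVec_eq_zero_iff.mp ⟨ξ, hξ, ?_⟩
  funext c
  have : (phi rho (proj u) *ᵥ ξ) c = ∑ a, ∑ i, star (u a) * nv i a c * dv i *
      ∑ b, ∑ d, (nv i b d : ℂ) * (u b * ξ d) := by
    simp only [mulVec, dotProduct, phi, of_apply, rho, rhoZ, proj, vecMulVec_apply, Pi.star_apply,
      Finset.sum_mul, Finset.mul_sum]
    push_cast
    simp only [Finset.sum_mul]
    rw [Finset.sum_comm]
    refine Finset.sum_congr rfl fun a _ => ?_
    rw [Finset.sum_comm]
    conv_rhs => rw [Finset.sum_comm]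
    refine Finset.sum_congr rfl fun b _ => ?_
    rw [Finset.sum_comm]
    exact Finset.sum_congr rfl fun i _ => Finset.sum_congr rfl fun d _ => by ring
  rw [this]
  simp [h]

lemma det_ne : (phi rho (proj ![1, 1, 0, 0])).det ≠ 0 := by
  have : phi rho (proj ![1, 1, 0, 0]) = (Int.castRingHom ℂ).mapMatrix sigZ := by
    ext c d
    simp [phi, rho, proj, vecMulVec_apply, Fin.sum_univ_four, sigZ]
    ring
  rw [this, ← RingHom.map_det, eq_intCast]
  exact_mod_cast check8

lemma trace_proj2 (α : Matrix (Fin 4 × Fin 4) (Fin 4 × Fin 4) ℂ) (u : Fin 4 → ℂ) :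
    (α * (proj u ⊗ₖ proj u)).trace = star (fun p : Fin 4 × Fin 4 => u p.1 * u p.2) ⬝ᵥ
      (α *ᵥ fun p : Fin 4 × Fin 4 => u p.1 * u p.2) := by
  simp only [trace, diag, Matrix.mul_apply, kroneckerMap_apply, proj, vecMulVec_apply,
    Pi.star_apply, dotProduct, mulVec, Finset.mul_sum, star_mul']
  exact Finset.sum_congr rfl fun x _ => Finset.sum_congr rfl fun y _ => by ring

lemma count_or {p q : ℕ → Prop} [DecidablePred p] [DecidablePred q] (n : ℕ)
    (h : ∀ i < n, p i ∨ q i) : n ≤ Nat.count p n + Nat.count q n := by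
  induction n with
  | zero => simp
  | succ n ih =>
    have := ih fun i hi => h i (by omega)
    rw [Nat.count_succ, Nat.count_succ]
    rcases h n (by omega) with h1 | h1
    · rw [if_pos h1]; omega
    · rw [if_pos h1]; omega

lemma count_mono' {p q : ℕ → Prop} [DecidablePred p] [DecidablePred q] (n : ℕ)
    (h : ∀ i, p i → q i) : Nat.count p n ≤ Nat.count q n := by
  induction n with
  | zero => simp
  | succ n ih =>
    rw [Nat.count_succ, Nat.count_succ]
    by_cases h1 : p n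
    · rw [if_pos h1, if_pos (h n h1)]; omega
    · rw [if_neg h1]; omega

theorem tau_not_sep {k : ℕ} (p : Fin k → ℝ) (hp : ∀ i, 0 ≤ p i)
    (α β : Fin k → Matrix (Fin 4 × Fin 4) (Fin 4 × Fin 4) ℂ)
    (hα : ∀ i, (α i).PosSemidef) (hβ : ∀ i, (β i).PosSemidef) :
    tau ≠ ∑ i, (p i : ℂ) • (α i ⊗ₖ β i) := by
  classical
  intro h
  obtain ⟨u, ξ, hξ, hker, hgp⟩ := exists_points
  let Q : Matrix (Fin 4 × Fin 4) (Fin 4 × Fin 4) ℂ → (Fin 4 → ℂ) → ℂ := fun γ v =>
    star (fun p : Fin 4 × Fin 4 => v p.1 * v p.2) ⬝ᵥ (γ *ᵥ fun p : Fin 4 × Fin 4 => v p.1 * v p.2)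
  have hQ : ∀ v, 24 * (phi rho (proj v)).det = ∑ i, (p i : ℂ) * (Q (α i) v * Q (β i) v) := by
    intro v
    rw [← tau_quad, h, Matrix.sum_mul, trace_sum]
    refine Finset.sum_congr rfl fun i _ => ?_
    rw [Matrix.smul_mul, trace_smul, ← mul_kronecker_mul, trace_kronecker, trace_proj2,
      trace_proj2, smul_eq_mul]
  have hvan : ∀ γ : Matrix (Fin 4 × Fin 4) (Fin 4 × Fin 4) ℂ, γ.PosSemidef →
      10 ≤ Nat.count (fun s => Q γ (u s) = 0) 19 → ∀ v, Q γ v = 0 := by
    intro γ hγ hc v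
    have : (γ *ᵥ fun p : Fin 4 × Fin 4 => v p.1 * v p.2) = 0 := by
      funext r
      have := hgp (fun a b => γ r (a, b)) (hc.trans (count_mono' 19 fun s hs => by
        have e := congrFun ((hγ.dotProduct_mulVec_zero_iff _).mp hs) r
        simpa only [mulVec, dotProduct, Fintype.sum_prod_type, Pi.zero_apply] using e)) v
      simpa only [mulVec, dotProduct, Fintype.sum_prod_type, Pi.zero_apply] using this
    simp only [Q, this, dotProduct_zero]
  have hterm : ∀ i v, (p i : ℂ) * (Q (α i) v * Q (β i) v) = 0 := by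
    intro i v
    by_cases h0 : (p i : ℂ) = 0
    · rw [h0, zero_mul]
    have hs : ∀ s < 19, Q (α i) (u s) = 0 ∨ Q (β i) (u s) = 0 := by
      intro s hs
      have e := hQ (u s)
      rw [det_ker (hξ s hs) (hker s hs), mul_zero, eq_comm,
        Finset.sum_eq_zero_iff_of_nonneg] at e
      · exact mul_eq_zero.mp ((mul_eq_zero.mp (e i (Finset.mem_univ _))).resolve_left h0)
      · intro j _
        exact mul_nonneg (Complex.zero_le_real.mpr (hp j))
          (mul_nonneg ((hα j).dotProduct_mulVec_nonneg _) ((hβ j).dotProduct_mulVec_nonneg _))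
    have hc := count_or 19 hs
    by_cases h1 : 10 ≤ Nat.count (fun s => Q (α i) (u s) = 0) 19
    · rw [hvan _ (hα i) h1, zero_mul, mul_zero]
    · rw [hvan _ (hβ i) (by omega), mul_zero, mul_zero]
  have := hQ ![1, 1, 0, 0]
  simp only [hterm, Finset.sum_const_zero] at this
  exact mul_ne_zero (by norm_num) det_ne this

theorem exists_example : ∃ ρ : Matrix (Fin 16 × Fin 16) (Fin 16 × Fin 16) ℂ,
    IsState ρ ∧ ¬ IsSeparable ρ ∧
    (∃ (dE : ℕ) (ψ : (Fin 16 × Fin 16) × Fin dE → ℂ), IsPurification ψ ρ) ∧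
    ∀ (dE : ℕ) (ψ : (Fin 16 × Fin 16) × Fin dE → ℂ), IsPurification ψ ρ →
      distillableKey ψ = 0 := by
  let e : Fin 4 × Fin 4 ≃ Fin 16 := finProdFinEquiv
  have hne : tau.trace ≠ 0 := by
    intro h0
    rw [tau_psd.trace_eq_zero_iff] at h0
    exact tau_not_sep (k := 0) (fun _ => 0) (fun _ => le_rfl) (fun _ => 0) (fun _ => 0)
      (fun _ => PosSemidef.zero) (fun _ => PosSemidef.zero) (by simp [h0])
  obtain ⟨h1, h2⟩ := Complex.nonneg_iff.mp tau_psd.trace_nonneg
  obtain ⟨t, ht⟩ : ∃ t : ℝ, tau.trace = t := ⟨tau.trace.re, Complex.ext rfl (by simp [← h2])⟩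
  rw [ht, Complex.ofReal_re] at h1
  have ht0 : t ≠ 0 := by rintro rfl; exact hne (by simpa using ht)
  have htC : (t : ℂ) ≠ 0 := by exact_mod_cast ht0
  have hti : (0 : ℂ) ≤ ((t⁻¹ : ℝ) : ℂ) := Complex.zero_le_real.mpr (inv_nonneg.mpr h1)
  let ρ : Matrix (Fin 16 × Fin 16) (Fin 16 × Fin 16) ℂ :=
    ((t⁻¹ : ℝ) : ℂ) • tau.submatrix (e.symm.prodCongr e.symm) (e.symm.prodCongr e.symm)
  have hpsd : ρ.PosSemidef := (tau_psd.submatrix _).smul hti
  have htr : ρ.trace = 1 := by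
    have : (tau.submatrix (e.symm.prodCongr e.symm) (e.symm.prodCongr e.symm)).trace = tau.trace :=
      Fintype.sum_equiv (e.symm.prodCongr e.symm) _ _ fun _ => rfl
    rw [trace_smul, this, ht, smul_eq_mul]
    push_cast
    exact inv_mul_cancel₀ htC
  refine ⟨ρ, ⟨hpsd, htr⟩, ?_, exists_purification hpsd, fun dE ψ hψ => ?_⟩
  · rintro ⟨k, p, α, β, hp, -, hα, hβ, h⟩
    refine tau_not_sep (fun i => t * p i) (fun i => mul_nonneg h1 (hp i))
      (fun i => (α i).submatrix e e) (fun i => (β i).submatrix e e)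
      (fun i => (hα i).1.submatrix _) (fun i => (hβ i).1.submatrix _) ?_
    ext x y
    have := congrFun (congrFun h (e x.1, e x.2)) (e y.1, e y.2)
    simp only [ρ, Matrix.smul_apply, submatrix_apply, Equiv.prodCongr_apply, Prod.map,
      Equiv.symm_apply_apply, Matrix.sum_apply, kroneckerMap_apply, smul_eq_mul] at this
    simp only [Matrix.smul_apply, submatrix_apply, Matrix.sum_apply, kroneckerMap_apply,
      smul_eq_mul]
    push_cast at this ⊢
    simp only [mul_assoc (t : ℂ)]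
    rw [← Finset.mul_sum, ← this, mul_inv_cancel_left₀ htC]
  · have hj := join_ppt rho_ppt rho_ppt
    let γ : Matrix (Fin 16 × (Fin 4 × Fin 4)) (Fin 16 × (Fin 4 × Fin 4)) ℂ :=
      (join rho rho).submatrix (Prod.map e.symm id) (Prod.map e.symm id)
    have hγ : PPT γ := ⟨hj.1.submatrix _, hj.2.submatrix (Prod.map e.symm id)⟩
    have hγ' : PPT (((t⁻¹ : ℝ) : ℂ) • γ) := ⟨hγ.1.smul hti, hγ.2.smul hti⟩
    have hV : vmat ψ * (vmat ψ)ᴴ = ρ := (traceRight_proj ψ).symm.trans hψ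
    refine key_eq_zero hγ' hγ Om ψ ?_ (by rw [hV, htr])
    rw [hV]
    ext x y
    simp only [ρ, tau, comp, Matrix.smul_apply, submatrix_apply, of_apply, smul_eq_mul,
      Finset.mul_sum]
    refine Finset.sum_congr rfl fun c _ => Finset.sum_congr rfl fun d _ => ?_
    simp only [join, γ, of_apply, Matrix.smul_apply, submatrix_apply, smul_eq_mul,
      Equiv.prodCongr_apply, Prod.map, id]
    ring

end Vale.Agent.P372
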