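import Vale.Agent.P372.Lin

/-! The key inequality for states obtained by joining two PPT states. -/

namespace Vale.Agent.P372

open Matrix
open scoped Kronecker ComplexOrder MatrixOrder

section
variable {X H : Type}

/-- transposition of the second factor -/
def ptr (M : Matrix (X × H) (X × H) ℂ) : Matrix (X × H) (X × H) ℂ :=
  Matrix.of fun p q => M (p.1, q.2) (q.1, p.2)

def PPT (M : Matrix (X × H) (X × H) ℂ) : Prop := M.PosSemidef ∧ (ptr M).PosSemidef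

variable [Fintype X] [Fintype H]

def comp (ω : Matrix (X × H) (X × H) ℂ) (η η' : H → ℂ) : Matrix X X ℂ :=
  Matrix.of fun x y => ∑ c, ∑ d, star (η c) * ω (x, c) (y, d) * η' d

def phi (ω : Matrix (X × H) (X × H) ℂ) (G : Matrix X X ℂ) : Matrix H H ℂ :=
  Matrix.of fun c d => ∑ x, ∑ y, ω (x, c) (y, d) * G y x

def jm (X : Type) [DecidableEq X] (η : H → ℂ) : Matrix (X × H) X ℂ :=
  Matrix.of fun p y => if p.1 = y then η p.2 else 0

lemma comp_eq [DecidableEq X] (ω : Matrix (X × H) (X × H) ℂ) (η η' : H → ℂ) :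
    comp ω η η' = (jm X η)ᴴ * ω * jm X η' := by
  ext x y
  have h1 : ∀ q : X × H, ((jm X η)ᴴ * ω) x q = ∑ c, star (η c) * ω (x, c) q := by
    intro q
    simp [jm, Matrix.mul_apply, Fintype.sum_prod_type, apply_ite star, Finset.sum_ite_irrel]
  rw [Matrix.mul_apply]
  simp only [h1]
  simp only [Fintype.sum_prod_type, jm, of_apply, comp, mul_ite, mul_zero,
    Finset.sum_ite_irrel, Finset.sum_const_zero, Finset.sum_ite_eq', Finset.mem_univ, if_true,
    Finset.sum_mul]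
  exact Finset.sum_comm

omit [Fintype X] in
lemma comp_ptr (ω : Matrix (X × H) (X × H) ℂ) (η η' : H → ℂ) :
    comp (ptr ω) (star η') (star η) = comp ω η η' := by
  ext x y
  simp only [comp, ptr, of_apply, Pi.star_apply, star_star]
  rw [Finset.sum_comm]
  refine Finset.sum_congr rfl fun c _ => Finset.sum_congr rfl fun d _ => by ring

lemma comp_psd {ω : Matrix (X × H) (X × H) ℂ} (h : ω.PosSemidef) (η : H → ℂ) :
    (comp ω η η).PosSemidef := by
  classical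
  rw [comp_eq]; exact h.conjTranspose_mul_mul_same _

omit [Fintype X] in
lemma comp_add_left (ω : Matrix (X × H) (X × H) ℂ) (η ζ η' : H → ℂ) :
    comp ω (η + ζ) η' = comp ω η η' + comp ω ζ η' := by
  ext x y
  simp [comp, add_mul, Finset.sum_add_distrib]

omit [Fintype X] in
lemma comp_add_right (ω : Matrix (X × H) (X × H) ℂ) (η ζ η' : H → ℂ) :
    comp ω η' (η + ζ) = comp ω η' η + comp ω η' ζ := by
  ext x y
  simp [comp, mul_add, Finset.sum_add_distrib]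

lemma trace_comp_mul (ω : Matrix (X × H) (X × H) ℂ) (η η' : H → ℂ) (G : Matrix X X ℂ) :
    (comp ω η η' * G).trace = star η ⬝ᵥ (phi ω G *ᵥ η') := by
  simp only [trace, diag, Matrix.mul_apply, comp, phi, of_apply, dotProduct, mulVec,
    Finset.sum_mul, Finset.mul_sum, Pi.star_apply]
  calc ∑ x, ∑ y, ∑ c, ∑ d, star (η c) * ω (x, c) (y, d) * η' d * G y x
      = ∑ x, ∑ c, ∑ d, ∑ y, star (η c) * ω (x, c) (y, d) * η' d * G y x := by
        refine Finset.sum_congr rfl fun x _ => ?_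
        rw [Finset.sum_comm]
        exact Finset.sum_congr rfl fun c _ => Finset.sum_comm
    _ = ∑ c, ∑ d, ∑ x, ∑ y, star (η c) * ω (x, c) (y, d) * η' d * G y x := by
        rw [Finset.sum_comm]
        exact Finset.sum_congr rfl fun c _ => Finset.sum_comm
    _ = _ := by
        refine Finset.sum_congr rfl fun c _ => Finset.sum_congr rfl fun d _ =>
          Finset.sum_congr rfl fun x _ => Finset.sum_congr rfl fun y _ => by ring

lemma phi_psd {ω : Matrix (X × H) (X × H) ℂ} (h : ω.PosSemidef) {G : Matrix X X ℂ}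
    (hG : G.PosSemidef) : (phi ω G).PosSemidef := by
  apply PosSemidef.of_dotProduct_mulVec_nonneg
  · ext c d
    simp only [phi, conjTranspose_apply, of_apply, star_sum, star_mul']
    rw [Finset.sum_comm]
    refine Finset.sum_congr rfl fun x _ => Finset.sum_congr rfl fun y _ => ?_
    rw [h.1.apply, hG.1.apply]
  · intro η
    rw [← trace_comp_mul]
    exact trace_mul_nonneg (comp_psd h η) hG

lemma two_re_le {n E : Type} [Fintype n] [Fintype E] {ω : Matrix n n ℂ} (h : ω.PosSemidef)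
    (Y Z : Matrix n E ℂ) (s : ℝ) :
    2 * s * (Yᴴ * ω * Z).trace.re ≤ s ^ 2 * (Yᴴ * ω * Y).trace.re + (Zᴴ * ω * Z).trace.re := by
  have h1 := (Complex.nonneg_iff.mp (h.conjTranspose_mul_mul_same ((s : ℂ) • Y - Z)).trace_nonneg).1
  have h2 : (Zᴴ * ω * Y).trace.re = (Yᴴ * ω * Z).trace.re := by
    have : (Zᴴ * ω * Y) = (Yᴴ * ω * Z)ᴴ := by
      rw [conjTranspose_mul, conjTranspose_mul, conjTranspose_conjTranspose, h.1.eq,
        Matrix.mul_assoc]
    rw [this, trace_conjTranspose]; simp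
  have h3 : ((s : ℂ) • Y - Z)ᴴ * ω * ((s : ℂ) • Y - Z) =
      ((s : ℂ) * s) • (Yᴴ * ω * Y) - (s : ℂ) • (Yᴴ * ω * Z) - (s : ℂ) • (Zᴴ * ω * Y)
        + Zᴴ * ω * Z := by
    simp only [conjTranspose_sub, conjTranspose_smul, Matrix.sub_mul, Matrix.mul_sub,
      Matrix.smul_mul, Matrix.mul_smul, smul_sub, smul_smul, Complex.star_def, Complex.conj_ofReal]
    abel
  rw [h3] at h1
  simp only [trace_add, trace_sub, trace_smul, smul_eq_mul, Complex.add_re, Complex.sub_re,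
    Complex.mul_re, Complex.ofReal_re, Complex.ofReal_im, Complex.mul_im, h2] at h1
  nlinarith [h1]

lemma cs_cp {E : Type} [Fintype E] {ω : Matrix (X × H) (X × H) ℂ} (h : ω.PosSemidef)
    (η η' : H → ℂ) (W0 W1 : Matrix X E ℂ) {G0 G1 : Matrix X X ℂ}
    (h0 : (G0 - W0 * W0ᴴ).PosSemidef) (h1 : (G1 - W1 * W1ᴴ).PosSemidef) (s : ℝ) :
    2 * s * (W0ᴴ * comp ω η η' * W1).trace.re ≤
      s ^ 2 * (comp ω η η * G0).trace.re + (comp ω η' η' * G1).trace.re := by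
  classical
  have e := two_re_le h (jm X η * W0) (jm X η' * W1) s
  have r : ∀ (ζ ζ' : H → ℂ) (W W' : Matrix X E ℂ),
      (jm X ζ * W)ᴴ * ω * (jm X ζ' * W') = Wᴴ * comp ω ζ ζ' * W' := by
    intro ζ ζ' W W'
    rw [comp_eq, conjTranspose_mul]; simp only [Matrix.mul_assoc]
  rw [r, r, r] at e
  have t : ∀ (ζ : H → ℂ) (W : Matrix X E ℂ) (G : Matrix X X ℂ), (G - W * Wᴴ).PosSemidef →
      (Wᴴ * comp ω ζ ζ * W).trace.re ≤ (comp ω ζ ζ * G).trace.re := by
    intro ζ W G hG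
    have := re_trace_mul_nonneg (comp_psd h ζ) hG
    rw [Matrix.mul_sub, trace_sub, Complex.sub_re] at this
    rw [trace_mul_cycle, trace_mul_comm]
    linarith
  have t0 := t η W0 G0 h0
  have t1 := t η' W1 G1 h1
  nlinarith [sq_nonneg s]

lemma cs_cocp {E : Type} [Fintype E] {ω : Matrix (X × H) (X × H) ℂ} (h : (ptr ω).PosSemidef)
    (η η' : H → ℂ) (W0 W1 : Matrix X E ℂ) {G0 G1 : Matrix X X ℂ}
    (h0 : (G0 - W0 * W0ᴴ).PosSemidef) (h1 : (G1 - W1 * W1ᴴ).PosSemidef) (s : ℝ) :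
    2 * s * (W0ᴴ * comp ω η η' * W1).trace.re ≤
      s ^ 2 * (comp ω η' η' * G0).trace.re + (comp ω η η * G1).trace.re := by
  have := cs_cp h (star η') (star η) W0 W1 h0 h1 s
  rwa [comp_ptr, comp_ptr, comp_ptr] at this

end

section
variable {A B C D : Type}

def join (α : Matrix (A × C) (A × C) ℂ) (β : Matrix (B × D) (B × D) ℂ) :
    Matrix ((A × B) × (C × D)) ((A × B) × (C × D)) ℂ :=
  Matrix.of fun p q => α (p.1.1, p.2.1) (q.1.1, q.2.1) * β (p.1.2, p.2.2) (q.1.2, q.2.2)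

lemma ptr_join (α : Matrix (A × C) (A × C) ℂ) (β : Matrix (B × D) (B × D) ℂ) :
    ptr (join α β) = join (ptr α) (ptr β) := rfl

variable [Fintype A] [Fintype B] [Fintype C] [Fintype D]

lemma join_psd {α : Matrix (A × C) (A × C) ℂ} {β : Matrix (B × D) (B × D) ℂ}
    (hα : α.PosSemidef) (hβ : β.PosSemidef) : (join α β).PosSemidef :=
  (hα.kronecker hβ).submatrix
    (fun p : (A × B) × (C × D) => ((p.1.1, p.2.1), (p.1.2, p.2.2)))

omit [Fintype C] [Fintype D] in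
lemma phi_join (α : Matrix (A × C) (A × C) ℂ) (β : Matrix (B × D) (B × D) ℂ)
    (G : Matrix A A ℂ) (G' : Matrix B B ℂ) :
    phi (join α β) (G ⊗ₖ G') = phi α G ⊗ₖ phi β G' := by
  ext ⟨c, d⟩ ⟨c', d'⟩
  simp only [phi, join, of_apply, kroneckerMap_apply, Fintype.sum_prod_type, Finset.sum_mul_sum]
  refine Finset.sum_congr rfl fun a _ => Finset.sum_congr rfl fun b _ =>
    Finset.sum_congr rfl fun a' _ => Finset.sum_congr rfl fun b' _ => by ring

lemma quad_le [DecidableEq D] {P P' F : Matrix C C ℂ} {Q : Matrix D D ℂ}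
    (h : (P' - Fᴴ * P * F).PosSemidef) (hQ : Q.PosSemidef) (Ω : C × D → ℂ) :
    (star ((F ⊗ₖ (1 : Matrix D D ℂ)) *ᵥ Ω) ⬝ᵥ ((P ⊗ₖ Q) *ᵥ ((F ⊗ₖ (1 : Matrix D D ℂ)) *ᵥ Ω))).re ≤
      (star Ω ⬝ᵥ ((P' ⊗ₖ Q) *ᵥ Ω)).re := by
  have e := (Complex.nonneg_iff.mp ((h.kronecker hQ).dotProduct_mulVec_nonneg Ω)).1
  have e2 : (P' - Fᴴ * P * F) ⊗ₖ Q = P' ⊗ₖ Q - (Fᴴ * P * F) ⊗ₖ Q := by
    ext p q; simp [sub_mul]
  rw [e2, sub_mulVec, dotProduct_sub, Complex.sub_re] at e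
  have e3 : (F ⊗ₖ (1 : Matrix D D ℂ))ᴴ * (P ⊗ₖ Q) * (F ⊗ₖ (1 : Matrix D D ℂ)) =
      (Fᴴ * P * F) ⊗ₖ Q := by
    rw [conjTranspose_kronecker, conjTranspose_one, ← mul_kronecker_mul, ← mul_kronecker_mul,
      Matrix.one_mul, Matrix.mul_one]
  rw [star_mulVec, ← dotProduct_mulVec, mulVec_mulVec, mulVec_mulVec, e3]
  linarith

lemma cross_le {E : Type} [Fintype E]
    {α : Matrix (A × C) (A × C) ℂ} {β : Matrix (B × D) (B × D) ℂ} (hα : PPT α) (hβ : PPT β)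
    (Ω : C × D → ℂ) {A0 A1 : Matrix A A ℂ} {B0 B1 : Matrix B B ℂ}
    (hA0 : A0.PosSemidef) (hA1 : A1.PosSemidef) (hB0 : B0.PosSemidef) (hB1 : B1.PosSemidef)
    (W0 W1 : Matrix (A × B) E ℂ)
    (h0 : (A0 ⊗ₖ B0 - W0 * W0ᴴ).PosSemidef) (h1 : (A1 ⊗ₖ B1 - W1 * W1ᴴ).PosSemidef) :
    2 * (W0ᴴ * comp (join α β) Ω Ω * W1).trace.re ≤
      (1 / 2) * ((comp (join α β) Ω Ω * A0 ⊗ₖ B0).trace.re +
        (comp (join α β) Ω Ω * A1 ⊗ₖ B1).trace.re) +
      4 * ((comp (join α β) Ω Ω * A0 ⊗ₖ B1).trace.re +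
        (comp (join α β) Ω Ω * A1 ⊗ₖ B0).trace.re) := by
  classical
  have hω := join_psd hα.1 hβ.1
  have hω' : (ptr (join α β)).PosSemidef := join_psd hα.2 hβ.2
  have hP0 := phi_psd hα.1 hA0
  have hP1 := phi_psd hα.1 hA1
  have hQ0 := phi_psd hβ.1 hB0
  have hQ1 := phi_psd hβ.1 hB1
  obtain ⟨F, hF0, hF1⟩ := exists_split hP0 hP1
  set η0 := (F ⊗ₖ (1 : Matrix D D ℂ)) *ᵥ Ω with hη0
  set η1 := ((1 - F) ⊗ₖ (1 : Matrix D D ℂ)) *ᵥ Ω with hη1
  have hΩ : Ω = η0 + η1 := by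
    rw [hη0, hη1, ← add_mulVec, ← add_kronecker]; simp
  have a00 : (phi α A0 - Fᴴ * phi α A0 * F).PosSemidef := by
    have := hF0.add (hP1.conjTranspose_mul_mul_same F)
    rwa [show phi α A0 - Fᴴ * (phi α A0 + phi α A1) * F + Fᴴ * phi α A1 * F =
      phi α A0 - Fᴴ * phi α A0 * F by noncomm_ring] at this
  have a01 : (phi α A0 - Fᴴ * phi α A1 * F).PosSemidef := by
    have := hF0.add (hP0.conjTranspose_mul_mul_same F)
    rwa [show phi α A0 - Fᴴ * (phi α A0 + phi α A1) * F + Fᴴ * phi α A0 * F =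
      phi α A0 - Fᴴ * phi α A1 * F by noncomm_ring] at this
  have a10 : (phi α A1 - (1 - F)ᴴ * phi α A0 * (1 - F)).PosSemidef := by
    have := hF1.add (hP1.conjTranspose_mul_mul_same (1 - F))
    generalize (1 - F) = F' at this ⊢
    rwa [show phi α A1 - F'ᴴ * (phi α A0 + phi α A1) * F' + F'ᴴ * phi α A1 * F' =
      phi α A1 - F'ᴴ * phi α A0 * F' by noncomm_ring] at this
  have a11 : (phi α A1 - (1 - F)ᴴ * phi α A1 * (1 - F)).PosSemidef := by
    have := hF1.add (hP0.conjTranspose_mul_mul_same (1 - F))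
    generalize (1 - F) = F' at this ⊢
    rwa [show phi α A1 - F'ᴴ * (phi α A0 + phi α A1) * F' + F'ᴴ * phi α A0 * F' =
      phi α A1 - F'ᴴ * phi α A1 * F' by noncomm_ring] at this
  have g00 := quad_le a00 hQ0 Ω
  have g01 := quad_le a01 hQ1 Ω
  have g10 := quad_le a10 hQ0 Ω
  have g11 := quad_le a11 hQ1 Ω
  rw [← hη0] at g00 g01
  rw [← hη1] at g10 g11
  simp only [← phi_join, ← trace_comp_mul] at g00 g01 g10 g11
  have c00 := cs_cp hω η0 η0 W0 W1 h0 h1 (1 / 2)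
  have c11 := cs_cp hω η1 η1 W0 W1 h0 h1 2
  have c10 := cs_cp hω η1 η0 W0 W1 h0 h1 1
  have c01 := cs_cocp hω' η0 η1 W0 W1 h0 h1 1
  have ex : (W0ᴴ * comp (join α β) Ω Ω * W1).trace.re =
      (W0ᴴ * comp (join α β) η0 η0 * W1).trace.re + (W0ᴴ * comp (join α β) η0 η1 * W1).trace.re +
      (W0ᴴ * comp (join α β) η1 η0 * W1).trace.re +
      (W0ᴴ * comp (join α β) η1 η1 * W1).trace.re := by
    conv_lhs => rw [hΩ]
    simp only [comp_add_left, comp_add_right, Matrix.mul_add, Matrix.add_mul, trace_add,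
      Complex.add_re]
    ring
  rw [ex]
  linarith

lemma lift_sqrt {X E : Type} [Fintype X] [Fintype E] [DecidableEq X] [DecidableEq E]
    (V : Matrix X E ℂ) {G : Matrix X X ℂ} (hG : G.PosSemidef) :
    ∃ (a : Matrix E E ℂ) (W : Matrix X E ℂ), a.PosSemidef ∧ a * a = Vᴴ * G * V ∧
      (G - W * Wᴴ).PosSemidef ∧ Vᴴ * W = a := by
  obtain ⟨a, R, ha, haa, hR, hc, h1, h2⟩ := exists_sqrt (hG.conjTranspose_mul_mul_same V)
  refine ⟨a, G * V * R, ha, haa, ?_, ?_⟩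
  · have e := hG.conjTranspose_mul_mul_same (1 - V * (R * R) * Vᴴ * G)
    have e2 : (R * R) * (Vᴴ * G * V) * (R * R) = R * R := by
      rw [← haa]
      calc R * R * (a * a) * (R * R) = R * (R * a) * (a * R) * R := by simp only [Matrix.mul_assoc]
        _ = R * (a * R) * (R * a) * R := by rw [hc]
        _ = (R * a * R) * (R * a * R) := by simp only [Matrix.mul_assoc]
        _ = R * R := by rw [h2]
    have e3 : (1 - V * (R * R) * Vᴴ * G)ᴴ * G * (1 - V * (R * R) * Vᴴ * G) =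
        G - G * V * R * (G * V * R)ᴴ := by
      simp only [conjTranspose_sub, conjTranspose_one, conjTranspose_mul, hR.eq, hG.1.eq,
        conjTranspose_conjTranspose, Matrix.sub_mul, Matrix.mul_sub, Matrix.one_mul, Matrix.mul_one]
      have : G * (V * (R * R * Vᴴ)) * G * (V * (R * R) * Vᴴ * G) =
          G * V * ((R * R) * (Vᴴ * G * V) * (R * R)) * Vᴴ * G := by simp only [Matrix.mul_assoc]
      rw [this, e2]
      simp only [Matrix.mul_assoc]
      abel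
    rwa [e3] at e
  · calc Vᴴ * (G * V * R) = (Vᴴ * G * V) * R := by simp only [Matrix.mul_assoc]
      _ = a * (a * R) := by rw [← haa, Matrix.mul_assoc]
      _ = a * (R * a) := by rw [hc]
      _ = a := by rw [← Matrix.mul_assoc, h1]

theorem key_ineq {E : Type} [Fintype E] [DecidableEq E]
    {α : Matrix (A × C) (A × C) ℂ} {β : Matrix (B × D) (B × D) ℂ} (hα : PPT α) (hβ : PPT β)
    (Ω : C × D → ℂ) (V : Matrix (A × B) E ℂ) (hV : V * Vᴴ = comp (join α β) Ω Ω)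
    {A0 A1 : Matrix A A ℂ} {B0 B1 : Matrix B B ℂ}
    (hA0 : A0.PosSemidef) (hA1 : A1.PosSemidef) (hB0 : B0.PosSemidef) (hB1 : B1.PosSemidef) :
    ∃ S : Matrix E E ℂ, S.IsHermitian ∧ S * S = 1 ∧
      (1 / 2) * ((Vᴴ * A0 ⊗ₖ B0 * V).trace.re + (Vᴴ * A1 ⊗ₖ B1 * V).trace.re) -
        4 * ((Vᴴ * A0 ⊗ₖ B1 * V).trace.re + (Vᴴ * A1 ⊗ₖ B0 * V).trace.re) ≤
      (S * (Vᴴ * A0 ⊗ₖ B0 * V - Vᴴ * A1 ⊗ₖ B1 * V)).trace.re := by
  classical
  obtain ⟨a, W0, ha, haa, hW0, hVa⟩ := lift_sqrt V (hA0.kronecker hB0)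
  obtain ⟨b, W1, hb, hbb, hW1, hVb⟩ := lift_sqrt V (hA1.kronecker hB1)
  obtain ⟨S, hS, hSS, hle⟩ := exists_test ha hb
  refine ⟨S, hS, hSS, ?_⟩
  have hc := cross_le hα hβ Ω hA0 hA1 hB0 hB1 W0 W1 hW0 hW1
  rw [← hV] at hc
  have e1 : W0ᴴ * (V * Vᴴ) * W1 = a * b := by
    calc W0ᴴ * (V * Vᴴ) * W1 = (Vᴴ * W0)ᴴ * (Vᴴ * W1) := by
          rw [conjTranspose_mul, conjTranspose_conjTranspose]; simp only [Matrix.mul_assoc]
      _ = a * b := by rw [hVa, hVb, ha.1.eq]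
  have e2 : ∀ G : Matrix (A × B) (A × B) ℂ, (V * Vᴴ * G).trace = (Vᴴ * G * V).trace := by
    intro G; rw [trace_mul_cycle Vᴴ G V]
  rw [e1, e2, e2, e2, e2] at hc
  rw [haa, hbb] at hle
  linarith

end

end Vale.Agent.P372
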