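import Mathlib

/-! Integer polynomials as lists, and lifting roots modulo a prime to algebraic integers. -/

namespace Vale.Agent.P372

open Polynomial

/-- Horner evaluation -/
def ev {R : Type} [CommRing R] (t : R) : List ℤ → R
  | [] => 0
  | c :: l => c + t * ev t l

lemma ev_map {R S : Type} [CommRing R] [CommRing S] (f : R →+* S) (t : R) :
    ∀ l : List ℤ, f (ev t l) = ev (f t) l
  | [] => by simp [ev]
  | c :: l => by simp [ev, ev_map f t l]

def ladd : List ℤ → List ℤ → List ℤ
  | [], m => m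
  | a :: l, [] => a :: l
  | a :: l, b :: m => (a + b) :: ladd l m

def lsmul (a : ℤ) : List ℤ → List ℤ
  | [] => []
  | b :: m => (a * b) :: lsmul a m

def lmul : List ℤ → List ℤ → List ℤ
  | [], _ => []
  | a :: l, m => ladd (lsmul a m) (0 :: lmul l m)

def lzero : List ℤ → Bool
  | [] => true
  | a :: l => decide (a = 0) && lzero l

section
variable {R : Type} [CommRing R] (t : R)

lemma ev_ladd : ∀ l m : List ℤ, ev t (ladd l m) = ev t l + ev t m
  | [], m => by simp [ladd, ev]
  | a :: l, [] => by simp [ladd, ev]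
  | a :: l, b :: m => by
    simp only [ladd, ev, ev_ladd l m]; push_cast; ring

lemma ev_lsmul (a : ℤ) : ∀ m : List ℤ, ev t (lsmul a m) = a * ev t m
  | [] => by simp [lsmul, ev]
  | b :: m => by
    simp only [lsmul, ev, ev_lsmul a m]; push_cast; ring

lemma ev_lmul : ∀ l m : List ℤ, ev t (lmul l m) = ev t l * ev t m
  | [], m => by simp [lmul, ev]
  | a :: l, m => by
    simp only [lmul, ev, ev_ladd, ev_lsmul, ev_lmul l m]; push_cast; ring

lemma ev_lzero : ∀ l : List ℤ, lzero l = true → ev t l = 0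
  | [], _ => rfl
  | a :: l, h => by
    simp only [lzero, Bool.and_eq_true, decide_eq_true_eq] at h
    simp [ev, h.1, ev_lzero l h.2]

end

lemma ev_monic {R : Type} [CommRing R] [Nontrivial R] :
    ∀ l : List ℤ, (ev (X : R[X]) (l ++ [1])).Monic
  | [] => by simp [ev]
  | c :: l => by
    have ih := ev_monic (R := R) l
    rw [List.cons_append, ev]
    refine (monic_X.mul ih).add_of_right ?_
    rw [← map_intCast (C : R →+* R[X])]
    refine degree_C_le.trans_lt ?_
    rw [mul_comm, degree_mul_X, degree_eq_natDegree ih.ne_zero]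
    exact_mod_cast Nat.succ_pos _

/-- algebraic integers -/
abbrev OO : Type := integralClosure ℤ ℂ

theorem exists_res : ∃ (K : Type) (_ : Field K) (_ : CharP K 1000423) (φ : OO →+* K),
    ∀ (l : List ℤ) (a : ℤ), (1000423 : ℤ) ∣ ev a (l ++ [1]) →
      ∃ θ : OO, ev θ (l ++ [1]) = 0 ∧ φ θ = a := by
  have hp : Nat.Prime 1000423 := by norm_num
  have : Fact (Nat.Prime 1000423) := ⟨hp⟩
  obtain ⟨Q, hQ, hQ2⟩ := Ideal.exists_ideal_over_maximal_of_isIntegral (S := OO)
    (Ideal.span {((1000423 : ℕ) : ℤ)}) (by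
      rw [(RingHom.injective_iff_ker_eq_bot _).mp (algebraMap ℤ OO).injective_int]
      exact bot_le)
  let _ : Field (OO ⧸ Q) := Ideal.Quotient.field Q
  have h0 : ((1000423 : ℕ) : OO ⧸ Q) = 0 := by
    rw [← map_natCast (Ideal.Quotient.mk Q), Ideal.Quotient.eq_zero_iff_mem]
    have : ((1000423 : ℕ) : ℤ) ∈ Q.comap (algebraMap ℤ OO) := by
      rw [hQ2]; exact Ideal.mem_span_singleton_self _
    rwa [Ideal.mem_comap, map_natCast] at this
  refine ⟨OO ⧸ Q, inferInstance, (CharP.charP_iff_prime_eq_zero hp).mpr h0,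
    Ideal.Quotient.mk Q, fun l a ha => ?_⟩
  have hm := ev_monic (R := OO) l
  have hZ := ev_monic (R := ℤ) l
  have hmap : (ev (X : OO[X]) (l ++ [1])).map (algebraMap OO ℂ) = ev X (l ++ [1]) := by
    have := ev_map (mapRingHom (algebraMap OO ℂ)) X (l ++ [1])
    simpa using this
  have hev : ∀ {R : Type} [CommRing R] (x : R), (ev (X : R[X]) (l ++ [1])).eval x =
      ev x (l ++ [1]) := by
    intro R _ x
    have := ev_map (evalRingHom x) X (l ++ [1])
    simpa using this
  have hs : (ev (X : OO[X]) (l ++ [1])).Splits := by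
    refine Splits.of_splits_map_of_injective (i := algebraMap OO ℂ) Subtype.val_injective
      (IsAlgClosed.splits _) fun r hr => ?_
    have h1 := (mem_roots'.mp hr).2
    rw [hmap, IsRoot, hev] at h1
    refine ⟨⟨r, ev X (l ++ [1]), hZ, ?_⟩, rfl⟩
    have := ev_map (eval₂RingHom (algebraMap ℤ ℂ) r) X (l ++ [1])
    rw [← h1]
    simpa using this
  have e := hs.eval_eq_prod_roots_of_monic hm (a : OO)
  rw [hev] at e
  have e2 : Ideal.Quotient.mk Q (ev (a : OO) (l ++ [1])) = 0 := by
    have := ev_map (Int.castRingHom OO) a (l ++ [1])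
    rw [eq_intCast, eq_intCast] at this
    rw [← this]
    obtain ⟨c, hc⟩ := ha
    rw [hc, map_intCast]
    push_cast
    have : (1000423 : OO ⧸ Q) = 0 := by exact_mod_cast h0
    rw [this, zero_mul]
  rw [e, map_multiset_prod, Multiset.prod_eq_zero_iff, Multiset.map_map, Multiset.mem_map] at e2
  obtain ⟨θ, h1, h2⟩ := e2
  refine ⟨θ, ?_, ?_⟩
  · rw [← hev]; exact (mem_roots'.mp h1).2
  · simp only [Function.comp, map_sub, map_intCast, sub_eq_zero] at h2
    exact h2.symm

end Vale.Agent.P372
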