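import Vale.Agent.P372.Defs

/-! Linear algebra lemmas for P372. -/

namespace Vale.Agent.P372

open Matrix
open scoped Kronecker ComplexOrder MatrixOrder

variable {n : Type} [Fintype n] [DecidableEq n]

lemma exists_diag {A : Matrix n n ℂ} (hA : A.IsHermitian) :
    ∃ (D : (n → ℝ) → Matrix n n ℂ) (lam : n → ℝ), A = D lam ∧ (∀ f g, D f * D g = D (f * g)) ∧
      D 1 = 1 ∧ (∀ f, (D f).IsHermitian) ∧ (∀ f, 0 ≤ f → (D f).PosSemidef) ∧
      (A.PosSemidef → 0 ≤ lam) := by
  let U : Matrix n n ℂ := hA.eigenvectorUnitary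
  have hU1 : Uᴴ * U = 1 := by
    have := hA.eigenvectorUnitary.2.1
    simpa [U, star_eq_conjTranspose] using this
  have hU2 : U * Uᴴ = 1 := by
    have := hA.eigenvectorUnitary.2.2
    simpa [U, star_eq_conjTranspose] using this
  refine ⟨fun f => U * diagonal (fun i => (f i : ℂ)) * Uᴴ, hA.eigenvalues, ?_, ?_, ?_, ?_, ?_, ?_⟩
  · have := hA.spectral_theorem
    rw [Unitary.conjStarAlgAut_apply] at this
    exact this
  · intro f g
    calc U * diagonal (fun i => (f i : ℂ)) * Uᴴ * (U * diagonal (fun i => (g i : ℂ)) * Uᴴ)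
        = U * (diagonal (fun i => (f i : ℂ)) * (Uᴴ * U) * diagonal (fun i => (g i : ℂ))) * Uᴴ := by
          simp only [Matrix.mul_assoc]
      _ = _ := by
          rw [hU1, Matrix.mul_one, diagonal_mul_diagonal]
          simp
  · simp [hU2]
  · intro f
    apply isHermitian_mul_mul_conjTranspose
    apply isHermitian_diagonal_iff.mpr
    intro i
    simp [IsSelfAdjoint]
  · intro f hf
    apply PosSemidef.mul_mul_conjTranspose_same
    apply PosSemidef.diagonal
    intro i
    simpa using hf i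
  · intro h i
    exact h.eigenvalues_nonneg i

lemma exists_sign {A : Matrix n n ℂ} (hA : A.IsHermitian) :
    ∃ S : Matrix n n ℂ, S.IsHermitian ∧ S * S = 1 ∧ S * A = A * S ∧ (S * A).PosSemidef := by
  obtain ⟨D, lam, hD, hmul, h1, hH, hP, -⟩ := exists_diag hA
  refine ⟨D (fun i => if 0 ≤ lam i then 1 else -1), hH _, ?_, ?_, ?_⟩
  · rw [hmul, ← h1]
    congr 1
    funext i
    by_cases h : 0 ≤ lam i <;> simp [h]
  · rw [hD, hmul, hmul, mul_comm]
  · rw [hD, hmul]
    apply hP
    intro i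
    by_cases h : 0 ≤ lam i
    · simp [h]
    · simp [h]; linarith

lemma exists_sqrt {A : Matrix n n ℂ} (hA : A.PosSemidef) :
    ∃ a R : Matrix n n ℂ, a.PosSemidef ∧ a * a = A ∧ R.IsHermitian ∧ R * a = a * R ∧
      a * R * a = a ∧ R * a * R = R := by
  obtain ⟨D, lam, hD, hmul, h1, hH, hP, hl⟩ := exists_diag hA.1
  have hl := hl hA
  refine ⟨D (fun i => √(lam i)), D (fun i => (√(lam i))⁻¹), hP _ (fun i => Real.sqrt_nonneg _),
    ?_, hH _, ?_, ?_, ?_⟩
  · rw [hmul, hD]
    congr 1
    funext i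
    exact Real.mul_self_sqrt (hl i)
  · rw [hmul, hmul, mul_comm]
  · rw [hmul, hmul]
    congr 1
    funext i
    by_cases h : √(lam i) = 0
    · simp [h]
    · simp [h]
  · rw [hmul, hmul]
    congr 1
    funext i
    by_cases h : √(lam i) = 0
    · simp [h]
    · simp [h]

omit [DecidableEq n] in
lemma exists_fac {A : Matrix n n ℂ} (hA : A.PosSemidef) :
    ∃ B : Matrix n n ℂ, A = Bᴴ * B := by
  classical
  obtain ⟨a, R, ha, haa, -⟩ := exists_sqrt hA
  exact ⟨a, by rw [ha.1.eq, haa]⟩

omit [DecidableEq n] in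
lemma trace_mul_nonneg {A B : Matrix n n ℂ} (hA : A.PosSemidef) (hB : B.PosSemidef) :
    0 ≤ (A * B).trace := by
  obtain ⟨C, rfl⟩ := exists_fac hB
  rw [← Matrix.mul_assoc, trace_mul_cycle]
  exact (hA.mul_mul_conjTranspose_same C).trace_nonneg

omit [DecidableEq n] in
lemma re_trace_mul_nonneg {A B : Matrix n n ℂ} (hA : A.PosSemidef) (hB : B.PosSemidef) :
    0 ≤ (A * B).trace.re := (Complex.nonneg_iff.mp (trace_mul_nonneg hA hB)).1

omit [DecidableEq n] in
lemma mul_eq_zero_of_quad {m : Type} [Fintype m] {P : Matrix n n ℂ} (hP : P.PosSemidef)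
    {N : Matrix n m ℂ} (h : (Nᴴ * P * N).trace = 0) : P * N = 0 := by
  obtain ⟨C, rfl⟩ := exists_fac hP
  have : (C * N)ᴴ * (C * N) = Nᴴ * (Cᴴ * C) * N := by
    rw [conjTranspose_mul]; simp only [Matrix.mul_assoc]
  rw [← this, trace_conjTranspose_mul_self_eq_zero_iff] at h
  rw [Matrix.mul_assoc, h, Matrix.mul_zero]

lemma exists_split {P Q : Matrix n n ℂ} (hP : P.PosSemidef) (hQ : Q.PosSemidef) :
    ∃ E : Matrix n n ℂ, (P - Eᴴ * (P + Q) * E).PosSemidef ∧
      (Q - (1 - E)ᴴ * (P + Q) * (1 - E)).PosSemidef := by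
  obtain ⟨a, R, ha, haa, hR, hc, h1, h2⟩ := exists_sqrt (hP.add hQ)
  have hS : (P + Q) * (R * R) * (P + Q) = P + Q := by
    rw [← haa]
    calc a * a * (R * R) * (a * a) = a * (a * R) * (R * a) * a := by simp only [Matrix.mul_assoc]
      _ = a * (R * a) * (a * R) * a := by rw [hc]
      _ = (a * R * a) * (a * R * a) := by simp only [Matrix.mul_assoc]
      _ = a * a := by rw [h1]
  set N : Matrix n n ℂ := 1 - R * R * (P + Q) with hN
  have hSN : (P + Q) * N = 0 := by
    rw [hN, Matrix.mul_sub, Matrix.mul_one, ← Matrix.mul_assoc, hS, sub_self]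
  have hPN : P * N = 0 := by
    apply mul_eq_zero_of_quad hP
    have e1 : (Nᴴ * P * N).trace + (Nᴴ * Q * N).trace = 0 := by
      rw [← trace_add, ← Matrix.add_mul, ← Matrix.mul_add, Matrix.mul_assoc, hSN]; simp
    have e2 := (hP.conjTranspose_mul_mul_same N).trace_nonneg
    have e3 := (hQ.conjTranspose_mul_mul_same N).trace_nonneg
    exact le_antisymm (by rw [← e1]; exact le_add_of_nonneg_right e3) e2
  have hE : (P + Q) * (R * R * P) = P := by
    have := congrArg conjTranspose hPN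
    rw [conjTranspose_mul, hN, hP.1.eq, conjTranspose_sub, conjTranspose_one, conjTranspose_mul,
      conjTranspose_mul, hR.eq, (hP.add hQ).1.eq, conjTranspose_zero, Matrix.sub_mul,
      Matrix.one_mul, sub_eq_zero] at this
    rw [← Matrix.mul_assoc]; exact this.symm
  set E := R * R * P with hEdef
  clear_value E
  have hE' : Eᴴ * (P + Q) = P := by
    have := congrArg conjTranspose hE
    rwa [conjTranspose_mul, (hP.add hQ).1.eq, hP.1.eq] at this
  have hPE : P * E = Eᴴ * P := by
    calc P * E = Eᴴ * (P + Q) * E := by rw [hE']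
      _ = Eᴴ * P := by rw [Matrix.mul_assoc, hE]
  have key : ((1 - E)ᴴ * P * (1 - E) + Eᴴ * Q * E).PosSemidef :=
    (hP.conjTranspose_mul_mul_same _).add (hQ.conjTranspose_mul_mul_same _)
  have e1 : (1 - E)ᴴ * P * (1 - E) + Eᴴ * Q * E = P - P * E := by
    have : (1 - E)ᴴ * P * (1 - E) + Eᴴ * Q * E = P - Eᴴ * P - P * E + Eᴴ * (P + Q) * E := by
      rw [conjTranspose_sub, conjTranspose_one]; noncomm_ring
    rw [this, hE', hPE]; abel
  refine ⟨E, ?_, ?_⟩
  · rw [hE', ← e1]; exact key
  · have : (1 - E)ᴴ * (P + Q) * (1 - E) =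
        (P + Q) - Eᴴ * (P + Q) - (P + Q) * E + Eᴴ * (P + Q) * E := by
      rw [conjTranspose_sub, conjTranspose_one]; noncomm_ring
    rw [this, hE', hE]
    have : Q - (P + Q - P - P + P * E) = P - P * E := by abel
    rw [this, ← e1]; exact key

lemma one_add_psd {S : Matrix n n ℂ} (hS : S.IsHermitian) (h : S * S = 1) :
    (1 + S).PosSemidef := by
  have h2 : (1 + S) = (1 / 2 : ℝ) • ((1 + S)ᴴ * (1 + S)) := by
    rw [conjTranspose_add, conjTranspose_one, hS.eq]
    have : (1 + S) * (1 + S) = (2 : ℝ) • (1 + S) := by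
      rw [two_smul]
      calc (1 + S) * (1 + S) = 1 + S + S + S * S := by noncomm_ring
        _ = _ := by rw [h]; abel
    rw [this, smul_smul]; simp
  rw [h2]
  exact (posSemidef_conjTranspose_mul_self _).smul (by norm_num)

lemma one_sub_psd {S : Matrix n n ℂ} (hS : S.IsHermitian) (h : S * S = 1) :
    (1 - S).PosSemidef := by
  have := one_add_psd (S := -S) hS.neg (by rw [neg_mul_neg, h])
  rwa [← sub_eq_add_neg] at this

lemma abs_add_psd {S A : Matrix n n ℂ} (hS : S.IsHermitian) (h : S * S = 1) (hc : S * A = A * S)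
    (hp : (S * A).PosSemidef) : (S * A + A).PosSemidef := by
  have h2 : S * A + A = (1 / 2 : ℝ) • ((1 + S)ᴴ * (S * A) * (1 + S)) := by
    rw [conjTranspose_add, conjTranspose_one, hS.eq]
    have : (1 + S) * (S * A) * (1 + S) = (2 : ℝ) • (S * A + A) := by
      rw [two_smul]
      calc (1 + S) * (S * A) * (1 + S)
          = S * A + S * (A * S) + (S * S) * A + (S * S) * (A * S) := by noncomm_ring
        _ = S * A + (S * S) * A + (S * S) * A + (S * S) * (S * A) := by
          rw [← hc]; noncomm_ring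
        _ = _ := by rw [h]; simp only [Matrix.one_mul]; abel
    rw [this, smul_smul]; simp
  rw [h2]
  exact (hp.conjTranspose_mul_mul_same _).smul (by norm_num)

lemma abs_sub_psd {S A : Matrix n n ℂ} (hS : S.IsHermitian) (h : S * S = 1) (hc : S * A = A * S)
    (hp : (S * A).PosSemidef) : (S * A - A).PosSemidef := by
  have := abs_add_psd (S := -S) (A := -A) hS.neg (by rw [neg_mul_neg, h])
    (by rw [neg_mul_neg, neg_mul_neg, hc]) (by rwa [neg_mul_neg])
  rwa [neg_mul_neg, ← sub_eq_add_neg] at this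

lemma re_trace_le_traceNorm {X T : Matrix n n ℂ} (hX : X.IsHermitian)
    (h1 : (1 + T).PosSemidef) (h2 : (1 - T).PosSemidef) : (T * X).trace.re ≤ traceNorm X := by
  obtain ⟨S, hS, hSS, hc, hp⟩ := exists_sign hX
  have hsq : CFC.sqrt (Xᴴ * X) = S * X := by
    apply CFC.sqrt_unique
    · rw [hX.eq]
      calc S * X * (S * X) = S * (X * S) * X := by simp only [Matrix.mul_assoc]
        _ = (S * S) * X * X := by rw [← hc]; simp only [Matrix.mul_assoc]
        _ = X * X := by rw [hSS, Matrix.one_mul]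
    · exact hp.nonneg
  have hsq' : cfc Real.sqrt (Xᴴ * X) = S * X := by
    rw [← hsq, CFC.sqrt_eq_real_sqrt _ (posSemidef_conjTranspose_mul_self X).nonneg, cfcₙ_eq_cfc]
  unfold traceNorm
  rw [hsq']
  have e1 := re_trace_mul_nonneg h2 (abs_add_psd hS hSS hc hp)
  have e2 := re_trace_mul_nonneg h1 (abs_sub_psd hS hSS hc hp)
  have e3 : (1 - T) * (S * X + X) + (1 + T) * (S * X - X) =
      (S * X + S * X) - (T * X + T * X) := by noncomm_ring
  have e4 := congrArg (fun M => M.trace.re) e3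
  simp only [trace_add, trace_sub, Complex.add_re, Complex.sub_re] at e4
  linarith

/-- Powers-Stormer type inequality. -/
lemma exists_test {a b : Matrix n n ℂ} (ha : a.PosSemidef) (hb : b.PosSemidef) :
    ∃ S : Matrix n n ℂ, S.IsHermitian ∧ S * S = 1 ∧
      (a * a).trace.re + (b * b).trace.re - 2 * (a * b).trace.re ≤
        (S * (a * a - b * b)).trace.re := by
  obtain ⟨S, hS, hSS, hc, hp⟩ := exists_sign (ha.1.sub hb.1)
  refine ⟨S, hS, hSS, ?_⟩
  have e1 := re_trace_mul_nonneg (abs_add_psd hS hSS hc hp) hb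
  have e2 := re_trace_mul_nonneg (abs_sub_psd hS hSS hc hp) ha
  have e3 : (S * (a + b) * (a - b)).trace = (S * (a - b) * (a + b)).trace := by
    rw [trace_mul_cycle, ← hc]
  have e4 : S * (a * a - b * b) + S * (a * a - b * b) =
      S * (a + b) * (a - b) + S * (a - b) * (a + b) := by noncomm_ring
  have e5 : (S * (a - b) + (a - b)) * b + (S * (a - b) - (a - b)) * a =
      S * (a - b) * (a + b) - (a * a + b * b - a * b - b * a) := by noncomm_ring
  have e6 := congrArg (fun M => M.trace.re) e4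
  have e7 := congrArg (fun M => M.trace.re) e5
  have e8 : (b * a).trace = (a * b).trace := trace_mul_comm _ _
  simp only [trace_add, trace_sub, Complex.add_re, Complex.sub_re, e3, e8] at e6 e7
  linarith

end Vale.Agent.P372
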