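import Vale.Agent.P372.KeyIneq

/-! Protocols give product effects; lower bound on the error for joined PPT states. -/

namespace Vale.Agent.P372

open Matrix
open scoped Kronecker ComplexOrder MatrixOrder

lemma sum_kron {ι l m n p : Type} (s : Finset ι) (f : ι → Matrix l m ℂ) (B : Matrix n p ℂ) :
    (∑ i ∈ s, f i) ⊗ₖ B = ∑ i ∈ s, f i ⊗ₖ B := by
  ext x y; simp [Matrix.sum_apply, Finset.sum_mul]

lemma kron_sum {ι l m n p : Type} (s : Finset ι) (A : Matrix l m ℂ) (f : ι → Matrix n p ℂ) :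
    A ⊗ₖ (∑ i ∈ s, f i) = ∑ i ∈ s, A ⊗ₖ f i := by
  ext x y; simp [Matrix.sum_apply, Finset.mul_sum]

lemma traceLeft_sum {ι X E : Type} [Fintype X] (s : Finset ι)
    (f : ι → Matrix (X × E) (X × E) ℂ) : traceLeft (∑ i ∈ s, f i) = ∑ i ∈ s, traceLeft (f i) := by
  ext e e'
  simp only [traceLeft, of_apply, Matrix.sum_apply]
  exact Finset.sum_comm

lemma traceLeft_cyc {X Y E : Type} [Fintype X] [Fintype Y] [Fintype E] [DecidableEq E]
    (Z : Matrix (Y × E) (X × E) ℂ) (N : Matrix X Y ℂ) :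
    traceLeft (Z * (N ⊗ₖ (1 : Matrix E E ℂ))) = traceLeft ((N ⊗ₖ (1 : Matrix E E ℂ)) * Z) := by
  ext e e'
  simp only [traceLeft, of_apply, Matrix.mul_apply, Fintype.sum_prod_type, kroneckerMap_apply,
    one_apply, mul_ite, ite_mul, mul_one, mul_zero, zero_mul, Finset.sum_ite_eq, Finset.sum_ite_eq',
    Finset.mem_univ, if_true]
  rw [Finset.sum_comm]
  exact Finset.sum_congr rfl fun x _ => Finset.sum_congr rfl fun y _ => mul_comm _ _

lemma traceLeft_step {X Y E ι : Type} [Fintype X] [Fintype Y] [Fintype E] [DecidableEq E]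
    [Fintype ι] (G : Matrix Y Y ℂ) (L : ι → Matrix Y X ℂ) (ω : Matrix (X × E) (X × E) ℂ) :
    traceLeft ((G ⊗ₖ (1 : Matrix E E ℂ)) *
      ∑ j, (L j ⊗ₖ (1 : Matrix E E ℂ)) * ω * (L j ⊗ₖ (1 : Matrix E E ℂ))ᴴ) =
    traceLeft (((∑ j, (L j)ᴴ * G * L j) ⊗ₖ (1 : Matrix E E ℂ)) * ω) := by
  rw [Matrix.mul_sum, traceLeft_sum, sum_kron, Matrix.sum_mul, traceLeft_sum]
  refine Finset.sum_congr rfl fun j _ => ?_
  rw [conjTranspose_kronecker, conjTranspose_one, ← Matrix.mul_assoc, traceLeft_cyc,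
    ← Matrix.mul_assoc, ← Matrix.mul_assoc, ← mul_kronecker_mul, ← mul_kronecker_mul]
  simp

lemma sum_inst {T M : Type} [AddCommMonoid M] (i1 i2 : Fintype T) (f : T → M) :
    ∑ t ∈ @Finset.univ T i1, f t = ∑ t ∈ @Finset.univ T i2, f t := by
  rw [Subsingleton.elim i1 i2]

theorem exists_effects {ℓ a b : ℕ} (P : Protocol ℓ a b) :
    ∃ (EA : P.Transcript → Key ℓ → Matrix (Fin a) (Fin a) ℂ)
      (EB : P.Transcript → Key ℓ → Matrix (Fin b) (Fin b) ℂ),
      (∀ t x, (EA t x).PosSemidef) ∧ (∀ t y, (EB t y).PosSemidef) ∧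
      ∑ t, ∑ x, ∑ y, EA t x ⊗ₖ EB t y = 1 ∧
      ∀ (E : Type) [Fintype E] [DecidableEq E]
        (ω : Matrix ((Fin a × Fin b) × E) ((Fin a × Fin b) × E) ℂ) t x y,
        P.eve ω t x y = traceLeft (((EA t x ⊗ₖ EB t y) ⊗ₖ (1 : Matrix E E ℂ)) * ω) := by
  induction P with
  | stop M N hM hM1 hN hN1 =>
    refine ⟨fun _ => M, fun _ => N, fun _ => hM, fun _ => hN, ?_, fun E _ _ ω t x y => rfl⟩
    refine (@sum_inst Unit _ _ _ inferInstance _).trans ?_
    refine (Fintype.sum_unique (ι := Unit) _).trans ?_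
    simp only [← kron_sum, ← sum_kron, hM1, hN1, one_kronecker_one]
  | @alice a b k r d K hK next ih =>
    choose EA EB hA hB hs he using ih
    refine ⟨fun t x => ∑ j, (K t.1 j)ᴴ * EA t.1 t.2 x * K t.1 j, fun t y => EB t.1 t.2 y,
      fun t x => posSemidef_sum _ fun j _ => (hA _ _ _).conjTranspose_mul_mul_same _,
      fun t y => hB _ _ _, ?_, ?_⟩
    · refine (@sum_inst (Σ m : Fin k, (next m).Transcript) _ _ _ inferInstance _).trans ?_
      refine (Fintype.sum_sigma (ι := Fin k) (α := fun m => (next m).Transcript) _).trans ?_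
      have : ∀ m, ∑ t, ∑ x, ∑ y, (∑ j, (K m j)ᴴ * EA m t x * K m j) ⊗ₖ EB m t y =
          (∑ j, (K m j)ᴴ * K m j) ⊗ₖ (1 : Matrix (Fin b) (Fin b) ℂ) := by
        intro m
        calc _ = ∑ j, (K m j ⊗ₖ (1 : Matrix (Fin b) (Fin b) ℂ))ᴴ *
              (∑ t, ∑ x, ∑ y, EA m t x ⊗ₖ EB m t y) *
              (K m j ⊗ₖ (1 : Matrix (Fin b) (Fin b) ℂ)) := by
              simp only [Matrix.mul_sum, Matrix.sum_mul, sum_kron, conjTranspose_kronecker,
                conjTranspose_one, ← mul_kronecker_mul, Matrix.one_mul, Matrix.mul_one]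
              symm
              rw [Finset.sum_comm]
              refine Finset.sum_congr rfl fun t _ => ?_
              rw [Finset.sum_comm]
              refine Finset.sum_congr rfl fun x _ => ?_
              rw [Finset.sum_comm]
          _ = _ := by
              simp only [hs, sum_kron, conjTranspose_kronecker,
                conjTranspose_one, ← mul_kronecker_mul, Matrix.mul_one]
      refine (Finset.sum_congr rfl fun m _ => this m).trans ?_
      rw [← sum_kron, hK, one_kronecker_one]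
    · intro E _ _ ω t x y
      refine (he t.1 E _ t.2 x y).trans ?_
      rw [traceLeft_step]
      simp only [sum_kron, conjTranspose_kronecker,
        conjTranspose_one, ← mul_kronecker_mul, Matrix.one_mul, Matrix.mul_one]
  | @bob a b k r d K hK next ih =>
    choose EA EB hA hB hs he using ih
    refine ⟨fun t x => EA t.1 t.2 x, fun t y => ∑ j, (K t.1 j)ᴴ * EB t.1 t.2 y * K t.1 j,
      fun t y => hA _ _ _,
      fun t x => posSemidef_sum _ fun j _ => (hB _ _ _).conjTranspose_mul_mul_same _, ?_, ?_⟩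
    · refine (@sum_inst (Σ m : Fin k, (next m).Transcript) _ _ _ inferInstance _).trans ?_
      refine (Fintype.sum_sigma (ι := Fin k) (α := fun m => (next m).Transcript) _).trans ?_
      have : ∀ m, ∑ t, ∑ x, ∑ y, EA m t x ⊗ₖ (∑ j, (K m j)ᴴ * EB m t y * K m j) =
          (1 : Matrix (Fin a) (Fin a) ℂ) ⊗ₖ (∑ j, (K m j)ᴴ * K m j) := by
        intro m
        calc _ = ∑ j, ((1 : Matrix (Fin a) (Fin a) ℂ) ⊗ₖ K m j)ᴴ *
              (∑ t, ∑ x, ∑ y, EA m t x ⊗ₖ EB m t y) *
              ((1 : Matrix (Fin a) (Fin a) ℂ) ⊗ₖ K m j) := by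
              simp only [Matrix.mul_sum, Matrix.sum_mul, kron_sum, conjTranspose_kronecker,
                conjTranspose_one, ← mul_kronecker_mul, Matrix.one_mul, Matrix.mul_one]
              symm
              rw [Finset.sum_comm]
              refine Finset.sum_congr rfl fun t _ => ?_
              rw [Finset.sum_comm]
              refine Finset.sum_congr rfl fun x _ => ?_
              rw [Finset.sum_comm]
          _ = _ := by
              simp only [hs, kron_sum, conjTranspose_kronecker,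
                conjTranspose_one, ← mul_kronecker_mul, Matrix.mul_one]
      refine (Finset.sum_congr rfl fun m _ => this m).trans ?_
      rw [← kron_sum, hK, one_kronecker_one]
    · intro E _ _ ω t x y
      refine (he t.1 E _ t.2 x y).trans ?_
      rw [traceLeft_step]
      simp only [kron_sum, conjTranspose_kronecker,
        conjTranspose_one, ← mul_kronecker_mul, Matrix.one_mul, Matrix.mul_one]

/-- the vector as a matrix -/
def vmat {X E : Type} (ψ : X × E → ℂ) : Matrix X E ℂ := Matrix.of fun x e => ψ (x, e)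

lemma traceLeft_proj {X E : Type} [Fintype X] [Fintype E] [DecidableEq E] (ψ : X × E → ℂ)
    (G : Matrix X X ℂ) :
    traceLeft ((G ⊗ₖ (1 : Matrix E E ℂ)) * proj ψ) = ((vmat ψ)ᴴ * G * vmat ψ)ᵀ := by
  ext e e'
  simp only [traceLeft, of_apply, Matrix.mul_apply, Fintype.sum_prod_type, kroneckerMap_apply,
    one_apply, mul_ite, ite_mul, mul_one, mul_zero, zero_mul, Finset.sum_ite_eq,
    Finset.mem_univ, if_true, proj, vecMulVec_apply, transpose_apply, vmat, conjTranspose_apply,
    Finset.sum_mul, Pi.star_apply]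
  rw [Finset.sum_comm]
  exact Finset.sum_congr rfl fun x _ => Finset.sum_congr rfl fun y _ => by ring

lemma traceRight_proj {X E : Type} [Fintype E] (ψ : X × E → ℂ) :
    traceRight (proj ψ) = vmat ψ * (vmat ψ)ᴴ := by
  ext x y
  simp [traceRight, proj, vecMulVec_apply, vmat, Matrix.mul_apply]

section blocks
variable {K T E : Type} [Fintype K] [DecidableEq K] [Fintype T] [DecidableEq T] [Fintype E]

/-- block diagonal matrix -/
def bd (f : K → T → Matrix E E ℂ) : Matrix (K × (T × E)) (K × (T × E)) ℂ :=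
  ∑ k, ∑ t, Matrix.single k k (1 : ℂ) ⊗ₖ (Matrix.single t t (1 : ℂ) ⊗ₖ f k t)

omit [Fintype E] in
lemma bd_apply (f : K → T → Matrix E E ℂ) (k k' : K) (t t' : T) (e e' : E) :
    bd f (k, (t, e)) (k', (t', e')) = if k = k' ∧ t = t' then f k t e e' else 0 := by
  simp only [bd, Matrix.sum_apply, kroneckerMap_apply, single_apply]
  rw [Finset.sum_eq_single k, Finset.sum_eq_single t]
  · by_cases h1 : k = k' <;> by_cases h2 : t = t' <;> simp [h1, h2]
  · intro b _ hb; simp [hb]
  · simp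
  · intro b _ hb; simp [hb]
  · simp

lemma single_psd {K : Type} [DecidableEq K] (k : K) :
    (Matrix.single k k (1 : ℂ)).PosSemidef := by
  rw [← diagonal_single]
  apply PosSemidef.diagonal
  intro i
  by_cases h : i = k
  · subst h; simp
  · simp [h]

lemma bd_psd {f : K → T → Matrix E E ℂ} (h : ∀ k t, (f k t).PosSemidef) : (bd f).PosSemidef :=
  posSemidef_sum _ fun k _ => posSemidef_sum _ fun t _ =>
    (single_psd k).kronecker ((single_psd t).kronecker (h k t))

omit [Fintype E] in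
lemma one_add_bd [DecidableEq E] (f : K → T → Matrix E E ℂ) :
    1 + bd f = bd (fun k t => 1 + f k t) := by
  ext ⟨k, t, e⟩ ⟨k', t', e'⟩
  simp only [Matrix.add_apply, bd_apply, one_apply, Prod.mk.injEq]
  by_cases h1 : k = k' <;> by_cases h2 : t = t' <;> simp [h1, h2]

omit [Fintype E] in
lemma one_sub_bd [DecidableEq E] (f : K → T → Matrix E E ℂ) :
    1 - bd f = bd (fun k t => 1 - f k t) := by
  ext ⟨k, t, e⟩ ⟨k', t', e'⟩
  simp only [Matrix.sub_apply, bd_apply, one_apply, Prod.mk.injEq]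
  by_cases h1 : k = k' <;> by_cases h2 : t = t' <;> simp [h1, h2]

lemma trace_bd_mul (f : K → T → Matrix E E ℂ) (M : Matrix (K × (T × E)) (K × (T × E)) ℂ) :
    (bd f * M).trace =
      ∑ k, ∑ t, (f k t * Matrix.of fun e e' => M (k, (t, e)) (k, (t, e'))).trace := by
  simp only [trace, diag, Matrix.mul_apply, Fintype.sum_prod_type, bd_apply, of_apply]
  refine Finset.sum_congr rfl fun k _ => Finset.sum_congr rfl fun t _ =>
    Finset.sum_congr rfl fun e _ => ?_
  rw [Finset.sum_eq_single k, Finset.sum_eq_single t]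
  · simp
  · intro b _ hb; simp [Ne.symm hb]
  · simp
  · intro b _ hb; simp [Ne.symm hb]
  · simp

end blocks

lemma sum_sign_eq_zero {ℓ : ℕ} (i0 : Fin ℓ) (c : ℂ) :
    ∑ z : Key ℓ, (if z i0 then -c else c) = 0 := by
  apply Finset.sum_involution (fun z _ => Function.update z i0 (!z i0))
  · intro z _
    cases h : z i0 <;> simp
  · intro z _ _ h
    have := congrFun h i0
    simp at this
  · intro z _
    funext i
    by_cases h : i = i0
    · subst h; simp
    · simp [h]
  · intro z _; simp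

lemma sum_bits {ℓ : ℕ} (i0 : Fin ℓ) {M : Type} [AddCommMonoid M] (g : Bool → Key ℓ → M) :
    ∑ x : Key ℓ, g (x i0) x = ∑ x ∈ Finset.univ.filter (fun x : Key ℓ => x i0 = false), g false x +
      ∑ x ∈ Finset.univ.filter (fun x : Key ℓ => x i0 = true), g true x := by
  rw [Finset.sum_filter, Finset.sum_filter, ← Finset.sum_add_distrib]
  refine Finset.sum_congr rfl fun x _ => ?_
  cases h : x i0 <;> simp

/-- the test block -/
noncomputable def blk {E : Type} [DecidableEq E] (S : Matrix E E ℂ) (i j : Bool) : Matrix E E ℂ :=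
  if i = j then (if i then -(1 / 5 : ℂ) else (1 / 5 : ℂ)) • Sᵀ else 1

lemma blk_psd {E : Type} [Fintype E] [DecidableEq E] {S : Matrix E E ℂ} (hS : S.IsHermitian)
    (h : S * S = 1) (i j : Bool) : (1 + blk S i j).PosSemidef ∧ (1 - blk S i j).PosSemidef := by
  have p1 : (1 + (1 / 5 : ℂ) • Sᵀ).PosSemidef := by
    have : (1 + (1 / 5 : ℂ) • Sᵀ) = (4 / 5 : ℝ) • (1 : Matrix E E ℂ) + (1 / 5 : ℝ) • (1 + S)ᵀ := by
      ext e e'; simp [one_apply]; split_ifs <;> simp_all <;> ring
    rw [this]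
    exact (PosSemidef.one.smul (by norm_num)).add ((one_add_psd hS h).transpose.smul (by norm_num))
  have p2 : (1 - (1 / 5 : ℂ) • Sᵀ).PosSemidef := by
    have : (1 - (1 / 5 : ℂ) • Sᵀ) = (4 / 5 : ℝ) • (1 : Matrix E E ℂ) + (1 / 5 : ℝ) • (1 - S)ᵀ := by
      ext e e'; simp [one_apply]; split_ifs <;> simp_all <;> ring
    rw [this]
    exact (PosSemidef.one.smul (by norm_num)).add ((one_sub_psd hS h).transpose.smul (by norm_num))
  cases i <;> cases j
  · exact ⟨p1, p2⟩
  · exact ⟨PosSemidef.one.add PosSemidef.one, by simp [blk, PosSemidef.zero]⟩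
  · exact ⟨PosSemidef.one.add PosSemidef.one, by simp [blk, PosSemidef.zero]⟩
  · simp only [blk, if_true, neg_smul, sub_neg_eq_add, ← sub_eq_add_neg]
    exact ⟨p2, p1⟩

lemma ideal_psd {ℓ : ℕ} {F : Type} [Fintype F] {σ : Matrix F F ℂ} (h : σ.PosSemidef) :
    (idealState ℓ σ).PosSemidef := by
  have h1 : (∑ z : Key ℓ, Matrix.single (z, z) (z, z) (1 : ℂ) ⊗ₖ σ).PosSemidef :=
    posSemidef_sum _ fun z _ => (single_psd (z, z)).kronecker h
  have h2 : (0 : ℂ) ≤ ((2 : ℂ) ^ ℓ)⁻¹ := by positivity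
  exact h1.smul h2

theorem error_ge {ℓ a b : ℕ} (i0 : Fin ℓ) {C D E : Type} [Fintype C] [Fintype D] [Fintype E]
    [DecidableEq E] {α : Matrix (Fin a × C) (Fin a × C) ℂ} {β : Matrix (Fin b × D) (Fin b × D) ℂ}
    (hα : PPT α) (hβ : PPT β) (Ω : C × D → ℂ) (ψ : (Fin a × Fin b) × E → ℂ)
    (hV : vmat ψ * (vmat ψ)ᴴ = comp (join α β) Ω Ω) (htr : (vmat ψ * (vmat ψ)ᴴ).trace = 1)
    (P : Protocol ℓ a b) {ε : ℝ} (hε : P.HasError (proj ψ) ε) : 1 / 10 ≤ ε := by
  obtain ⟨σ, hσ, hε⟩ := hε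
  obtain ⟨EA, EB, hA, hB, hs, he⟩ := exists_effects P
  set V := vmat ψ with hVdef
  let A : P.Transcript → Bool → Matrix (Fin a) (Fin a) ℂ :=
    fun t i => ∑ x ∈ Finset.univ.filter (fun x : Key ℓ => x i0 = i), EA t x
  let B : P.Transcript → Bool → Matrix (Fin b) (Fin b) ℂ :=
    fun t i => ∑ x ∈ Finset.univ.filter (fun x : Key ℓ => x i0 = i), EB t x
  have hA' : ∀ t i, (A t i).PosSemidef := fun t i => posSemidef_sum _ fun x _ => hA t x
  have hB' : ∀ t i, (B t i).PosSemidef := fun t i => posSemidef_sum _ fun x _ => hB t x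
  choose S hS hSS hkey using fun t =>
    key_ineq hα hβ Ω V hV (hA' t false) (hA' t true) (hB' t false) (hB' t true)
  have hfin : P.finalState (proj ψ) =
      bd (fun (k : Key ℓ × Key ℓ) t => (Vᴴ * (EA t k.1 ⊗ₖ EB t k.2) * V)ᵀ) := by
    unfold Protocol.finalState bd
    rw [Fintype.sum_prod_type]
    simp only [he, traceLeft_proj]
    rfl
  have hF1 : ∀ (k : Key ℓ × Key ℓ) t, ((Vᴴ * (EA t k.1 ⊗ₖ EB t k.2) * V)ᵀ).PosSemidef :=
    fun k t => (((hA t k.1).kronecker (hB t k.2)).conjTranspose_mul_mul_same V).transpose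
  have hF2 : (P.finalState (proj ψ)).PosSemidef := by
    rw [hfin]; exact bd_psd hF1
  have hF3 : (idealState ℓ σ).PosSemidef := ideal_psd hσ.1
  have hH : (P.finalState (proj ψ) - idealState ℓ σ).IsHermitian := hF2.1.sub hF3.1
  let Tm := bd (fun (k : Key ℓ × Key ℓ) t => blk (S t) (k.1 i0) (k.2 i0))
  have hle := re_trace_le_traceNorm (T := Tm) hH
    (by rw [one_add_bd]; exact bd_psd fun k t => (blk_psd (hS t) (hSS t) _ _).1)
    (by rw [one_sub_bd]; exact bd_psd fun k t => (blk_psd (hS t) (hSS t) _ _).2)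
  have hid : (Tm * idealState ℓ σ).trace = 0 := by
    rw [trace_bd_mul, Finset.sum_comm]
    refine Finset.sum_eq_zero fun t _ => ?_
    rw [Fintype.sum_prod_type]
    have : ∀ x : Key ℓ, ∑ y : Key ℓ, (blk (S t) (x i0) (y i0) *
        Matrix.of fun e e' => idealState ℓ σ ((x, y), (t, e)) ((x, y), (t, e'))).trace =
        (if x i0 then -(1 / 5 : ℂ) else (1 / 5 : ℂ)) *
          (((2 : ℂ) ^ ℓ)⁻¹ * ((S t)ᵀ * Matrix.of fun e e' => σ (t, e) (t, e')).trace) := by
      intro x
      have hb : ∀ y : Key ℓ,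
          (Matrix.of fun e e' => idealState ℓ σ ((x, y), (t, e)) ((x, y), (t, e'))) =
          if y = x then ((2 : ℂ) ^ ℓ)⁻¹ • Matrix.of fun e e' => σ (t, e) (t, e') else 0 := by
        intro y
        ext e e'
        simp only [idealState, of_apply, Matrix.smul_apply, Matrix.sum_apply, kroneckerMap_apply,
          single_apply, Prod.mk.injEq, and_self, smul_eq_mul]
        by_cases h : y = x
        · subst h; simp
        · rw [Finset.sum_eq_zero]
          · simp [h]
          · intro z _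
            rw [if_neg, zero_mul]
            rintro ⟨rfl, rfl⟩; exact h rfl
      simp only [hb]
      rw [Finset.sum_eq_single x]
      · rw [if_pos rfl]
        simp only [blk, if_true, Matrix.smul_mul, Matrix.mul_smul, trace_smul, smul_eq_mul]
        ring
      · intro y _ hy; simp [hy]
      · simp
    simp only [this]
    rw [← Finset.sum_mul, sum_sign_eq_zero, zero_mul]
  have hmain : ∀ t, (1 / 10) * (Vᴴ * (∑ x, ∑ y, EA t x ⊗ₖ EB t y) * V).trace.re ≤
      (∑ k : Key ℓ × Key ℓ, (blk (S t) (k.1 i0) (k.2 i0) *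
        (Vᴴ * (EA t k.1 ⊗ₖ EB t k.2) * V)ᵀ).trace).re := by
    intro t
    have gen : ∀ h : Bool → Bool → Matrix E E ℂ,
        ∑ x : Key ℓ, ∑ y : Key ℓ, (h (x i0) (y i0) * (Vᴴ * (EA t x ⊗ₖ EB t y) * V)ᵀ).trace =
        (h false false * (Vᴴ * (A t false ⊗ₖ B t false) * V)ᵀ).trace +
        (h false true * (Vᴴ * (A t false ⊗ₖ B t true) * V)ᵀ).trace +
        ((h true false * (Vᴴ * (A t true ⊗ₖ B t false) * V)ᵀ).trace +
        (h true true * (Vᴴ * (A t true ⊗ₖ B t true) * V)ᵀ).trace) := by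
      intro h
      rw [sum_bits i0 (fun i x => ∑ y : Key ℓ,
        (h i (y i0) * (Vᴴ * (EA t x ⊗ₖ EB t y) * V)ᵀ).trace)]
      have s2 : ∀ i x, ∑ y : Key ℓ, (h i (y i0) * (Vᴴ * (EA t x ⊗ₖ EB t y) * V)ᵀ).trace =
          (h i false * (Vᴴ * (EA t x ⊗ₖ B t false) * V)ᵀ).trace +
          (h i true * (Vᴴ * (EA t x ⊗ₖ B t true) * V)ᵀ).trace := by
        intro i x
        rw [sum_bits i0 (fun j y => (h i j * (Vᴴ * (EA t x ⊗ₖ EB t y) * V)ᵀ).trace)]
        simp only [B, kron_sum, Matrix.mul_sum, Matrix.sum_mul, transpose_sum, trace_sum]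
      simp only [s2, Finset.sum_add_distrib, A, sum_kron, Matrix.mul_sum, Matrix.sum_mul,
        transpose_sum, trace_sum]
    have g1 := gen (fun _ _ => 1)
    have g2 := gen (blk (S t))
    simp only [Matrix.one_mul, trace_transpose] at g1
    rw [Fintype.sum_prod_type, g2]
    simp only [Matrix.mul_sum, Matrix.sum_mul, trace_sum]
    rw [g1]
    have hk := hkey t
    have tt : ∀ M : Matrix E E ℂ, ((S t)ᵀ * Mᵀ).trace = (S t * M).trace := by
      intro M; rw [← transpose_mul, trace_transpose, trace_mul_comm]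
    have n01 := (Complex.nonneg_iff.mp
      (((hA' t false).kronecker (hB' t true)).conjTranspose_mul_mul_same V).trace_nonneg).1
    have n10 := (Complex.nonneg_iff.mp
      (((hA' t true).kronecker (hB' t false)).conjTranspose_mul_mul_same V).trace_nonneg).1
    rw [Matrix.mul_sub, trace_sub, Complex.sub_re] at hk
    simp only [blk, Bool.false_eq_true, Bool.true_eq_false, if_true, if_false, Matrix.smul_mul,
      trace_smul, tt, Matrix.one_mul, trace_transpose, Complex.add_re, smul_eq_mul, Complex.mul_re,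
      Complex.neg_re, Complex.neg_im]
    norm_num
    linarith
  have hsum : (Tm * P.finalState (proj ψ)).trace = ∑ t, ∑ k : Key ℓ × Key ℓ,
      (blk (S t) (k.1 i0) (k.2 i0) * (Vᴴ * (EA t k.1 ⊗ₖ EB t k.2) * V)ᵀ).trace := by
    rw [trace_bd_mul, Finset.sum_comm, hfin]
    refine Finset.sum_congr rfl fun t _ => Finset.sum_congr rfl fun k _ => ?_
    have : (Matrix.of fun e e' => bd (fun (k : Key ℓ × Key ℓ) t =>
        (Vᴴ * (EA t k.1 ⊗ₖ EB t k.2) * V)ᵀ) (k, (t, e)) (k, (t, e'))) =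
        (Vᴴ * (EA t k.1 ⊗ₖ EB t k.2) * V)ᵀ := by
      ext e e'
      rw [of_apply, bd_apply, if_pos ⟨rfl, rfl⟩]
    rw [this]
  rw [Matrix.mul_sub, trace_sub, hid, sub_zero, hsum, Complex.re_sum] at hle
  have htot : ∑ t, (Vᴴ * (∑ x, ∑ y, EA t x ⊗ₖ EB t y) * V).trace.re = 1 := by
    rw [← Complex.re_sum, ← trace_sum, ← Matrix.sum_mul, ← Matrix.mul_sum, hs, Matrix.mul_one,
      trace_mul_comm, htr, Complex.one_re]
  have := Finset.sum_le_sum fun t (_ : t ∈ Finset.univ) => hmain t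
  rw [← Finset.mul_sum, htot] at this
  linarith

end Vale.Agent.P372
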