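import Vale.Agent.P372.Proto

/-! Tensor powers: joined PPT states have no distillable key. -/

namespace Vale.Agent.P372

open Matrix Filter Topology
open scoped Kronecker ComplexOrder MatrixOrder ENNReal

lemma prod_sum_fun {n : ℕ} {X : Type} [Fintype X] (f : Fin n → X → ℂ) :
    ∏ i, ∑ x, f i x = ∑ x : Fin n → X, ∏ i, f i (x i) := by
  rw [Finset.prod_univ_sum, Fintype.piFinset_univ]

lemma prod_sum_pair {n : ℕ} {X Y : Type} [Fintype X] [Fintype Y] (f : Fin n → X × Y → ℂ) :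
    ∏ i, ∑ x, f i x = ∑ x : (Fin n → X) × (Fin n → Y), ∏ i, f i (x.1 i, x.2 i) := by
  rw [prod_sum_fun]
  exact Fintype.sum_equiv (Equiv.arrowProdEquivProdArrow (Fin n) (fun _ => X) (fun _ => Y)) _ _
    fun _ => rfl

lemma pow_psd {X : Type} [Fintype X] {M : Matrix X X ℂ} (h : M.PosSemidef) (n : ℕ) :
    (Matrix.of fun x y : Fin n → X => ∏ i, M (x i) (y i)).PosSemidef := by
  classical
  obtain ⟨B, rfl⟩ := exists_fac h
  have : (Matrix.of fun x y : Fin n → X => ∏ i, (Bᴴ * B) (x i) (y i)) =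
      (Matrix.of fun x y : Fin n → X => ∏ i, B (x i) (y i))ᴴ *
        (Matrix.of fun x y : Fin n → X => ∏ i, B (x i) (y i)) := by
    ext x y
    simp only [of_apply, Matrix.mul_apply, conjTranspose_apply, prod_sum_fun, star_prod,
      Finset.prod_mul_distrib]
  rw [this]
  exact posSemidef_conjTranspose_mul_self _

/-- tensor power of a bipartite operator -/
def powOp {d : ℕ} {C : Type} (α : Matrix (Fin d × C) (Fin d × C) ℂ) (n : ℕ) :
    Matrix (Fin (d ^ n) × (Fin n → C)) (Fin (d ^ n) × (Fin n → C)) ℂ :=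
  Matrix.of fun p q => ∏ i, α (finFunctionFinEquiv.symm p.1 i, p.2 i)
    (finFunctionFinEquiv.symm q.1 i, q.2 i)

lemma powOp_psd {d : ℕ} {C : Type} [Fintype C] {α : Matrix (Fin d × C) (Fin d × C) ℂ}
    (h : α.PosSemidef) (n : ℕ) : (powOp α n).PosSemidef :=
  (pow_psd h n).submatrix
    (fun (p : Fin (d ^ n) × (Fin n → C)) i => (finFunctionFinEquiv.symm p.1 i, p.2 i))

lemma powOp_ppt {d : ℕ} {C : Type} [Fintype C] {α : Matrix (Fin d × C) (Fin d × C) ℂ}
    (h : PPT α) (n : ℕ) : PPT (powOp α n) :=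
  ⟨powOp_psd h.1 n, powOp_psd h.2 n⟩

lemma vmat_pow {dA dB dE : ℕ} (ψ : (Fin dA × Fin dB) × Fin dE → ℂ) (n : ℕ)
    (x y : Fin (dA ^ n) × Fin (dB ^ n)) :
    (vmat (tensorPow ψ n) * (vmat (tensorPow ψ n))ᴴ) x y =
      ∏ i, (vmat ψ * (vmat ψ)ᴴ) (finFunctionFinEquiv.symm x.1 i, finFunctionFinEquiv.symm x.2 i)
        (finFunctionFinEquiv.symm y.1 i, finFunctionFinEquiv.symm y.2 i) := by
  simp only [Matrix.mul_apply, conjTranspose_apply, vmat, of_apply, tensorPow, prod_sum_fun,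
    star_prod, Finset.prod_mul_distrib]

theorem key_eq_zero {dA dB dE : ℕ} {C D : Type} [Fintype C] [Fintype D]
    {α : Matrix (Fin dA × C) (Fin dA × C) ℂ} {β : Matrix (Fin dB × D) (Fin dB × D) ℂ}
    (hα : PPT α) (hβ : PPT β) (Ω : C × D → ℂ) (ψ : (Fin dA × Fin dB) × Fin dE → ℂ)
    (hV : vmat ψ * (vmat ψ)ᴴ = comp (join α β) Ω Ω) (htr : (vmat ψ * (vmat ψ)ᴴ).trace = 1) :
    distillableKey ψ = 0 := by
  have main : ∀ (n ℓ : ℕ) (P : Protocol ℓ (dA ^ n) (dB ^ n)) (ε : ℝ),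
      P.HasError (proj (tensorPow ψ n)) ε → ε < 1 / 10 → ℓ = 0 := by
    intro n ℓ P ε hε hlt
    by_contra h0
    refine absurd (error_ge ⟨0, Nat.pos_of_ne_zero h0⟩ (powOp_ppt hα n) (powOp_ppt hβ n)
      (fun p : (Fin n → C) × (Fin n → D) => ∏ i, Ω (p.1 i, p.2 i)) (tensorPow ψ n) ?_ ?_ P hε)
      (not_le.mpr hlt)
    · ext x y
      rw [vmat_pow, hV]
      simp only [comp, of_apply]
      rw [prod_sum_pair]
      refine Finset.sum_congr rfl fun c _ => ?_
      rw [prod_sum_pair]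
      refine Finset.sum_congr rfl fun d _ => ?_
      simp only [join, powOp, of_apply, star_prod, Finset.prod_mul_distrib]
    · simp only [trace, diag, vmat_pow]
      have h1 := prod_sum_pair (n := n) (fun _ x => (vmat ψ * (vmat ψ)ᴴ) x x)
      have h2 : ∑ x, (vmat ψ * (vmat ψ)ᴴ) x x = 1 := htr
      rw [h2, Finset.prod_const_one] at h1
      rw [h1]
      exact Fintype.sum_equiv (Equiv.prodCongr finFunctionFinEquiv.symm finFunctionFinEquiv.symm)
        _ _ fun _ => rfl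
  unfold distillableKey
  simp only [ENNReal.iSup_eq_zero]
  intro ℓ P ε hε hlim
  have hev : ∀ᶠ n in atTop, ε n < 1 / 10 := hlim.eventually_lt_const (by norm_num)
  have : (fun n : ℕ => (ℓ n : ℝ≥0∞) / (n : ℝ≥0∞)) =ᶠ[atTop] fun _ => 0 := by
    filter_upwards [hev] with n hn
    rw [main n (ℓ n) (P n) (ε n) (hε n) hn]
    simp
  rw [liminf_congr this, liminf_const]

theorem exists_purification {dA dB : ℕ} {ρ : Matrix (Fin dA × Fin dB) (Fin dA × Fin dB) ℂ}
    (h : ρ.PosSemidef) :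
    ∃ (dE : ℕ) (ψ : (Fin dA × Fin dB) × Fin dE → ℂ), IsPurification ψ ρ := by
  obtain ⟨B, rfl⟩ := exists_fac h
  refine ⟨dA * dB, fun p => Bᴴ p.1 (finProdFinEquiv.symm p.2), ?_⟩
  unfold IsPurification
  rw [traceRight_proj]
  ext x y
  simp only [Matrix.mul_apply, conjTranspose_apply, vmat, of_apply, star_star]
  exact Fintype.sum_equiv finProdFinEquiv.symm _ _ fun _ => rfl

end Vale.Agent.P372
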